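import Crest.Agent.S0112W.PartE

set_option autoImplicit false
open Filter MeasureTheory Crest.OpAlg
open scoped Topology InnerProductSpace BoundedContinuousFunction

namespace Crest.Agent.S0112

variable {H : Type*} [NormedAddCommGroup H] [InnerProductSpace ℂ H] [CompleteSpace H]
variable (S : ModularDatum H)

theorem greedy (herg : S.Ergodic) (ω : Ultrafilter ℕ) (hω : (ω : Filter ℕ) ≤ atTop)
    (T : H →L[ℂ] H) {K : Set ℝ} {c : ℝ} (hK : ∀ u ∈ K, u ≤ c) {a : H →L[ℂ] H}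
    (ha : a ∈ S.M) (haK : S.D.SupportedIn K (a S.vac)) {L : ℝ}
    (hL : Tendsto (windowMean fun t => ‖T (S.D.wave t (a S.vac))‖ ^ 2) ω (𝓝 L))
    {lam β : ℝ} (hlam : 0 ≤ lam) (N : ℕ) (hN : 0 < N)
    (hβ : β < L - lam * (2 + 4 * Real.exp c) * ‖a S.vac‖ ^ 2 * ‖a S.vac‖ ^ 2
      - lam * (N : ℝ)⁻¹ * ‖a‖ ^ 4) :
    ∃ v ∈ S.M, S.D.SupportedIn K (v S.vac) ∧ β ≤ pot S T lam 0 v := by
  set κ0 : ℝ := lam * (2 + 4 * Real.exp c) * ‖a S.vac‖ ^ 2 with hκ0
  have hκ00 : 0 ≤ κ0 := by positivity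
  have hN' : (0 : ℝ) < N := by exact_mod_cast hN
  set ρ : ℝ := √((N : ℝ)⁻¹) with hρ
  have hρ2 : ρ ^ 2 = (N : ℝ)⁻¹ := Real.sq_sqrt (by positivity)
  have key : ∀ j : ℕ, j ≤ N → ∃ v ∈ S.M, S.D.SupportedIn K (v S.vac) ∧
      (j : ℝ) * ((N : ℝ)⁻¹ * β) ≤ pot S T lam (κ0 * (1 - j * (N : ℝ)⁻¹)) v := by
    intro j
    induction j with
    | zero =>
      intro _
      refine ⟨0, zero_mem _, ?_, ?_⟩
      · show S.D.SupportedIn K 0
        exact SupportedIn.zero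
      · simp [pot]
    | succ j ih =>
      intro hj
      obtain ⟨w, hw, hwK, hwp⟩ := ih (by omega)
      have hjN : ((j + 1 : ℕ) : ℝ) * (N : ℝ)⁻¹ ≤ 1 := by
        rw [← div_eq_mul_inv, div_le_one hN']; exact_mod_cast hj
      have hj0 : 0 ≤ ((j + 1 : ℕ) : ℝ) * (N : ℝ)⁻¹ := by positivity
      set κ : ℝ := κ0 * (1 - ((j + 1 : ℕ) : ℝ) * (N : ℝ)⁻¹) with hκ
      have hκ1 : 0 ≤ κ := mul_nonneg hκ00 (by linarith)
      have hκ2 : κ ≤ κ0 := by
        rw [hκ]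
        calc κ0 * (1 - ((j + 1 : ℕ) : ℝ) * (N : ℝ)⁻¹) ≤ κ0 * 1 :=
              mul_le_mul_of_nonneg_left (by linarith) hκ00
          _ = κ0 := mul_one _
      have hβ2 : β < L - κ * ‖a S.vac‖ ^ 2 - lam * ρ ^ 2 * ‖a‖ ^ 4 := by
        rw [hρ2]
        have : κ * ‖a S.vac‖ ^ 2 ≤ κ0 * ‖a S.vac‖ ^ 2 := by gcongr
        linarith
      obtain ⟨v, hv, hvK, hvp⟩ := greedy_step S herg ω hω T hK ha haK hw hwK hL hlam hκ1 hβ2
      refine ⟨v, hv, hvK, le_trans ?_ hvp⟩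
      rw [hρ2, ← hκ0]
      have e : κ + (N : ℝ)⁻¹ * κ0 = κ0 * (1 - j * (N : ℝ)⁻¹) := by
        rw [hκ]; push_cast; ring
      rw [e]
      push_cast
      linarith
  obtain ⟨v, hv, hvK, hvp⟩ := key N le_rfl
  refine ⟨v, hv, hvK, ?_⟩
  have e1 : (N : ℝ) * (N : ℝ)⁻¹ = 1 := mul_inv_cancel₀ hN'.ne'
  rw [e1, sub_self, mul_zero, ← mul_assoc, e1, one_mul] at hvp
  exact hvp

set_option maxHeartbeats 4000000 in
theorem per_n (herg : S.Ergodic) (ω : Ultrafilter ℕ) (hω : (ω : Filter ℕ) ≤ atTop)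
    (T : H →L[ℂ] H) (s : ℝ) {c : ℝ} (hc : 0 < c) :
    ∃ C η : ℝ, 0 < η ∧ ∀ (δ : ℝ) (h : H), 0 < δ → δ ≤ 1 → ‖h‖ = 1 →
      S.D.SupportedIn (Set.Icc (s - δ) (s + δ)) h →
      c ≤ ultraMean ω (fun t : ℝ => ‖T (S.D.wave t h)‖ ^ 2) →
      ∃ v ∈ S.M, ‖v‖ ≤ C ∧ η ≤ ‖T (v S.vac)‖ ∧
        S.D.SupportedIn (Set.Icc (s - 4 * δ) (s + 4 * δ)) (v S.vac) := by
  obtain ⟨Lc, hLc, hsm⟩ := exists_smoother S
  set m : ℝ := ‖T‖ with hm
  have hm0 : 0 ≤ m := norm_nonneg _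
  set C1 : ℝ := 2 + 4 * Real.exp (s + 2) with hC1
  have hC10 : 0 < C1 := by positivity
  set lam : ℝ := c / (128 * C1) with hlam
  have hlam0 : 0 < lam := by positivity
  set C0 : ℝ := m ^ 2 / lam with hC0
  have hC00 : 0 ≤ C0 := by positivity
  set q : ℝ := √(c / 8) with hq
  have hq0 : 0 < q := Real.sqrt_pos.2 (by positivity)
  set R : ℝ := (2 * (m * C0 + 1) / q) ^ 2 with hR
  have hR0 : 0 < R := by positivity
  have hsR : √R = 2 * (m * C0 + 1) / q := Real.sqrt_sq (by positivity)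
  refine ⟨Lc * √R, q / 2, by positivity, fun δ h hδ hδ1 hh hsupp hmean => ?_⟩
  -- approximate `h` by `a ξ`
  set ε : ℝ := min 1 (c / (6 * (m ^ 2 + 1))) with hε
  have hε0 : 0 < ε := lt_min one_pos (by positivity)
  have hε1 : ε ≤ 1 := min_le_left _ _
  have hε2 : ε ≤ c / (6 * (m ^ 2 + 1)) := min_le_right _ _
  obtain ⟨_, bx, ⟨b, rfl⟩⟩ := Metric.dense_iff.1 S.cyclic h ε hε0
  rw [Metric.mem_ball, dist_eq_norm] at bx
  obtain ⟨F1, hF1a, hF1b, hF1n, hF1⟩ := hsm s (δ / 2) (by positivity)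
  obtain ⟨a, ha, -, hav⟩ := hF1 b b.2
  have hF1h : S.D.apply F1 h = h := SupportedIn.apply_eq hsupp F1 fun u hu => by
    refine hF1a u ?_
    rw [abs_le]; constructor <;> linarith [hu.1, hu.2]
  have hah : ‖a S.vac - h‖ ≤ ε := by
    have : a S.vac - h = S.D.apply F1 ((b : H →L[ℂ] H) S.vac - h) := by
      rw [map_sub, hF1h, hav]
    rw [this]
    refine (apply_norm_le' _ _ _).trans ?_
    calc ‖F1‖ * _ ≤ 1 * ε := mul_le_mul hF1n bx.le (norm_nonneg _) zero_le_one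
      _ = ε := one_mul _
  set K : Set ℝ := Set.Icc (s - 2 * δ) (s + 2 * δ) with hK
  have haK : S.D.SupportedIn K (a S.vac) := by
    rw [hav]
    refine supportedIn_apply _ F1 (fun u hu => hF1b u ?_) _
    rw [hK, Set.mem_Icc, not_and_or, not_le, not_le] at hu
    rcases hu with hu | hu
    · rw [abs_of_nonpos (by linarith)]; linarith
    · rw [abs_of_nonneg (by linarith)]; linarith
  have hKc : ∀ u ∈ K, u ≤ s + 2 := fun u hu => by
    have := hu.2; linarith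
  have han : ‖a S.vac‖ ≤ 1 + ε := by
    have h1 := norm_sub_norm_le (a S.vac) h
    rw [hh] at h1; linarith
  have han2 : ‖a S.vac‖ ≤ 2 := by linarith
  -- mean of `‖T W_t a ξ‖²`
  have hTb : ∀ x : H, ∀ t, |‖T (S.D.wave t x)‖ ^ 2| ≤ (m * ‖x‖) ^ 2 := by
    intro x t
    rw [abs_of_nonneg (by positivity)]
    have := T.le_opNorm (S.D.wave t x)
    rw [norm_wave] at this
    exact pow_le_pow_left₀ (norm_nonneg _) this 2
  have hTc : ∀ x : H, Continuous fun t => ‖T (S.D.wave t x)‖ ^ 2 := fun x =>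
    ((T.continuous.comp (continuous_wave S.D x)).norm).pow 2
  have hLa := tendsto_ultraMean ω (hTb (a S.vac))
  have hLh := tendsto_ultraMean ω (hTb h)
  set L : ℝ := ultraMean ω (fun t => ‖T (S.D.wave t (a S.vac))‖ ^ 2) with hLdef
  have hLbig : c / 2 ≤ L := by
    have hpt : ∀ t, ‖T (S.D.wave t h)‖ ^ 2 ≤ ‖T (S.D.wave t (a S.vac))‖ ^ 2 + c / 2 := by
      intro t
      have h1 : ‖T (S.D.wave t h)‖ ≤ m := by
        have := T.le_opNorm (S.D.wave t h)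
        rwa [norm_wave, hh, mul_one] at this
      have h2 : ‖T (S.D.wave t (a S.vac))‖ ≤ m * 2 := by
        have := T.le_opNorm (S.D.wave t (a S.vac))
        rw [norm_wave] at this
        exact this.trans (mul_le_mul_of_nonneg_left han2 hm0)
      have h3 : ‖T (S.D.wave t h)‖ - ‖T (S.D.wave t (a S.vac))‖ ≤ m * ε := by
        refine (norm_sub_norm_le _ _).trans ?_
        rw [← map_sub, ← map_sub]
        have := T.le_opNorm (S.D.wave t (h - a S.vac))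
        rw [norm_wave, norm_sub_rev] at this
        exact this.trans (mul_le_mul_of_nonneg_left hah hm0)
      have h4 : m ^ 2 * ε ≤ c / 6 := by
        calc m ^ 2 * ε ≤ (m ^ 2 + 1) * (c / (6 * (m ^ 2 + 1))) := by
              refine mul_le_mul (by linarith) hε2 hε0.le (by positivity)
          _ = c / 6 := by field_simp
      have h5 : 0 ≤ ‖T (S.D.wave t h)‖ + ‖T (S.D.wave t (a S.vac))‖ := by positivity
      have h6 : (‖T (S.D.wave t h)‖ - ‖T (S.D.wave t (a S.vac))‖) *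
          (‖T (S.D.wave t h)‖ + ‖T (S.D.wave t (a S.vac))‖) ≤ (m * ε) * (3 * m) := by
        refine (mul_le_mul_of_nonneg_right h3 h5).trans ?_
        refine mul_le_mul_of_nonneg_left (by linarith) (by positivity)
      nlinarith [h4, h6]
    have hle : ultraMean ω (fun t => ‖T (S.D.wave t h)‖ ^ 2) ≤ L + c / 2 := by
      refine le_of_tendsto_of_tendsto hLh (hLa.add_const (c / 2)) ?_
      have hev2 : ∀ᶠ k : ℕ in (ω : Filter ℕ), 0 < k := hω (eventually_gt_atTop 0)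
      filter_upwards [hev2] with k hk
      have h1 := windowMean_mono (g := fun t => ‖T (S.D.wave t (a S.vac))‖ ^ 2 + c / 2)
        (hTc h) ((hTc (a S.vac)).add (continuous_const (y := c / 2))) hpt k
      rw [windowMean_add (hTc (a S.vac)) continuous_const, windowMean_const hk] at h1
      exact h1
    linarith
  -- greedy choice
  obtain ⟨N, hN⟩ := exists_nat_gt (max 0 (8 * lam * ‖a‖ ^ 4 / c))
  have hN0 : 0 < N := by
    have : (0 : ℝ) < N := lt_of_le_of_lt (le_max_left _ _) hN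
    exact_mod_cast this
  have hN0' : (0 : ℝ) < N := by exact_mod_cast hN0
  have hN1 : lam * (N : ℝ)⁻¹ * ‖a‖ ^ 4 ≤ c / 8 := by
    have h1 : 8 * lam * ‖a‖ ^ 4 / c < N := lt_of_le_of_lt (le_max_right _ _) hN
    rw [div_lt_iff₀ hc] at h1
    have h2 : lam * (N : ℝ)⁻¹ * ‖a‖ ^ 4 = (8 * lam * ‖a‖ ^ 4) * (N : ℝ)⁻¹ / 8 := by ring
    rw [h2]
    have h3 : (8 * lam * ‖a‖ ^ 4) * (N : ℝ)⁻¹ ≤ c := by
      rw [← div_eq_mul_inv, div_le_iff₀ hN0']; linarith
    linarith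
  have hα : lam * (2 + 4 * Real.exp (s + 2)) * ‖a S.vac‖ ^ 2 * ‖a S.vac‖ ^ 2 ≤ c / 8 := by
    rw [← hC1]
    have h1 : ‖a S.vac‖ ^ 2 ≤ 4 := by nlinarith [norm_nonneg (a S.vac)]
    calc lam * C1 * ‖a S.vac‖ ^ 2 * ‖a S.vac‖ ^ 2 ≤ lam * C1 * 4 * 4 := by gcongr
      _ = c / 8 := by rw [hlam]; field_simp; norm_num
  obtain ⟨v, hv, hvK, hvp⟩ := greedy S herg ω hω T hKc ha haK hLa hlam0.le N hN0
    (β := c / 8) (by linarith)
  -- consequences of the potential bound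
  set Y : ℝ := ‖star v (v S.vac)‖ with hY
  have hY0 : 0 ≤ Y := norm_nonneg _
  have hvY : ‖v S.vac‖ ^ 2 ≤ Y := by
    rw [norm_sq_eq_re, ← star_inner_right]
    have h1 := norm_inner_le_norm (𝕜 := ℂ) S.vac (star v (v S.vac))
    rw [S.norm_vac, one_mul] at h1
    exact (Complex.re_le_norm _).trans h1
  have hpot : c / 8 + lam * Y ^ 2 ≤ ‖T (v S.vac)‖ ^ 2 := by
    have : pot S T lam 0 v = ‖T (v S.vac)‖ ^ 2 - lam * Y ^ 2 - 0 * ‖v S.vac‖ ^ 2 := rfl
    rw [this] at hvp; linarith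
  have hTv : ‖T (v S.vac)‖ ^ 2 ≤ m ^ 2 * Y := by
    have h1 := T.le_opNorm (v S.vac)
    calc ‖T (v S.vac)‖ ^ 2 ≤ (m * ‖v S.vac‖) ^ 2 := pow_le_pow_left₀ (norm_nonneg _) h1 2
      _ = m ^ 2 * ‖v S.vac‖ ^ 2 := by ring
      _ ≤ m ^ 2 * Y := by gcongr
  have hYC : Y ≤ C0 := by
    rw [hC0, le_div_iff₀ hlam0]
    rcases eq_or_lt_of_le hY0 with h0 | h0
    · rw [← h0]; nlinarith [sq_nonneg m]
    · have h1 : lam * Y ^ 2 ≤ m ^ 2 * Y := by linarith
      have h2 : (Y * lam) * Y ≤ m ^ 2 * Y := by linarith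
      exact le_of_mul_le_mul_right h2 h0
  have hTvq : q ≤ ‖T (v S.vac)‖ := by
    rw [hq]
    refine Real.sqrt_le_iff.2 ⟨norm_nonneg _, ?_⟩
    have : 0 ≤ lam * Y ^ 2 := by positivity
    linarith
  -- truncation
  obtain ⟨v', hv', hv'n, hvv'⟩ := exists_truncation S hv hR0
  -- smoothing
  obtain ⟨F2, hF2a, hF2b, hF2n, hF2⟩ := hsm s δ hδ
  obtain ⟨v2, hv2, hv2n, hv2v⟩ := hF2 v' hv'
  have hF2v : S.D.apply F2 (v S.vac) = v S.vac := SupportedIn.apply_eq hvK F2 fun u hu => by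
    refine hF2a u ?_
    rw [abs_le]; constructor <;> linarith [hu.1, hu.2]
  refine ⟨v2, hv2, ?_, ?_, ?_⟩
  · exact hv2n.trans (mul_le_mul_of_nonneg_left hv'n hLc)
  · have h1 : v S.vac - v2 S.vac = S.D.apply F2 (v S.vac - v' S.vac) := by
      rw [map_sub, hF2v, hv2v]
    have h2 : ‖v S.vac - v2 S.vac‖ ≤ √R * (C0 / R) := by
      rw [h1]
      refine (apply_norm_le' _ _ _).trans ?_
      calc ‖F2‖ * ‖v S.vac - v' S.vac‖ ≤ 1 * (√R * (Y / R)) :=
            mul_le_mul hF2n hvv' (norm_nonneg _) zero_le_one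
        _ = √R * (Y / R) := one_mul _
        _ ≤ √R * (C0 / R) := by gcongr
    have h3 : √R * (C0 / R) = C0 / √R := by
      have : √R ≠ 0 := (Real.sqrt_pos.2 hR0).ne'
      have h4 : R = √R * √R := (Real.mul_self_sqrt hR0.le).symm
      rw [eq_div_iff this]
      calc √R * (C0 / R) * √R = (√R * √R) * (C0 / R) := by ring
        _ = R * (C0 / R) := by rw [← h4]
        _ = C0 := by field_simp
    rw [h3] at h2
    have h5 : ‖T (v S.vac)‖ - ‖T (v2 S.vac)‖ ≤ m * (C0 / √R) := by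
      refine (norm_sub_norm_le _ _).trans ?_
      rw [← map_sub]
      exact (T.le_opNorm _).trans (mul_le_mul_of_nonneg_left h2 hm0)
    have h6 : m * (C0 / √R) ≤ q / 2 := by
      rw [hsR]
      have : m * (C0 / (2 * (m * C0 + 1) / q)) = (m * C0 / (m * C0 + 1)) * (q / 2) := by
        field_simp
      rw [this]
      have h7 : m * C0 / (m * C0 + 1) ≤ 1 := by
        rw [div_le_one (by positivity)]; linarith
      calc _ ≤ 1 * (q / 2) := mul_le_mul_of_nonneg_right h7 (by positivity)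
        _ = q / 2 := one_mul _
    linarith
  · rw [hv2v]
    refine supportedIn_apply _ F2 (fun u hu => hF2b u ?_) _
    rw [Set.mem_Icc, not_and_or, not_le, not_le] at hu
    rcases hu with hu | hu
    · rw [abs_of_nonpos (by linarith)]; linarith
    · rw [abs_of_nonneg (by linarith)]; linarith

end Crest.Agent.S0112
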