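import Crest.Statements.S0112

set_option autoImplicit false
open Filter MeasureTheory Crest.OpAlg
open scoped Topology InnerProductSpace BoundedContinuousFunction

namespace Crest.Agent.S0112

variable {H : Type*} [NormedAddCommGroup H] [InnerProductSpace ℂ H] [CompleteSpace H]

/-! ### Part A: the line calculus -/

lemma apply_norm_le (D : LineCalculus H) (f : ℝ →ᵇ ℂ) : ‖D.apply f‖ ≤ ‖f‖ :=
  NonUnitalStarAlgHom.norm_apply_le D.apply f

lemma apply_norm_le' (D : LineCalculus H) (f : ℝ →ᵇ ℂ) (x : H) : ‖D.apply f x‖ ≤ ‖f‖ * ‖x‖ :=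
  ((D.apply f).le_opNorm x).trans (mul_le_mul_of_nonneg_right (apply_norm_le D f) (norm_nonneg x))

lemma apply_mul (D : LineCalculus H) (f g : ℝ →ᵇ ℂ) (x : H) :
    D.apply (f * g) x = D.apply f (D.apply g x) := by
  rw [map_mul]; rfl

lemma apply_sub (D : LineCalculus H) (f g : ℝ →ᵇ ℂ) (x : H) :
    D.apply (f - g) x = D.apply f x - D.apply g x := by
  rw [map_sub]; rfl

lemma apply_one (D : LineCalculus H) (x : H) : D.apply 1 x = x := by
  rw [map_one]; rfl

lemma ext_window (D : LineCalculus H) {x : H}
    (h : ∀ f : ℝ →ᵇ ℂ, HasCompactSupport (f : ℝ → ℂ) → D.apply f x = 0) : x = 0 := by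
  rw [← norm_le_zero_iff]
  refine le_of_forall_pos_le_add fun ε hε => ?_
  obtain ⟨f, hf, hfx⟩ := D.window x ε hε
  rw [h f hf, zero_sub, norm_neg] at hfx
  linarith

lemma ext_window' (D : LineCalculus H) {x y : H}
    (h : ∀ f : ℝ →ᵇ ℂ, HasCompactSupport (f : ℝ → ℂ) → D.apply f x = D.apply f y) : x = y := by
  rw [← sub_eq_zero]
  refine ext_window D fun f hf => ?_
  rw [map_sub, h f hf, sub_self]

open LineCalculus in
lemma character_apply (t u : ℝ) :
    character t u = Complex.exp (Complex.I * ((t * u : ℝ) : ℂ)) := rfl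

open LineCalculus in
lemma character_add (s t : ℝ) : character (s + t) = character s * character t := by
  ext u
  simp only [BoundedContinuousFunction.coe_mul, Pi.mul_apply, character_apply]
  rw [← Complex.exp_add]
  push_cast
  ring_nf

open LineCalculus in
lemma character_zero : character 0 = 1 := by
  ext u
  simp [character_apply]

open LineCalculus in
lemma star_character (t : ℝ) : star (character t) = character (-t) := by
  ext u
  simp only [BoundedContinuousFunction.star_apply, character_apply, Complex.star_def]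
  rw [← Complex.exp_conj]
  simp

lemma wave_add (D : LineCalculus H) (s t : ℝ) : D.wave (s + t) = D.wave s * D.wave t := by
  simp only [LineCalculus.wave, character_add, map_mul]

lemma wave_zero (D : LineCalculus H) : D.wave 0 = 1 := by
  simp only [LineCalculus.wave, character_zero, map_one]

lemma star_wave (D : LineCalculus H) (t : ℝ) : star (D.wave t) = D.wave (-t) := by
  simp only [LineCalculus.wave, ← star_character, map_star]

lemma wave_mul_neg (D : LineCalculus H) (t : ℝ) : D.wave t * D.wave (-t) = 1 := by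
  rw [← wave_add, add_neg_cancel, wave_zero]

lemma wave_neg_mul (D : LineCalculus H) (t : ℝ) : D.wave (-t) * D.wave t = 1 := by
  rw [← wave_add, neg_add_cancel, wave_zero]

lemma wave_neg_wave (D : LineCalculus H) (t : ℝ) (x : H) : D.wave (-t) (D.wave t x) = x := by
  have := congrArg (fun a : H →L[ℂ] H => a x) (wave_neg_mul D t)
  simpa using this

lemma wave_wave_neg (D : LineCalculus H) (t : ℝ) (x : H) : D.wave t (D.wave (-t) x) = x := by
  have := congrArg (fun a : H →L[ℂ] H => a x) (wave_mul_neg D t)
  simpa using this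

lemma inner_wave_left (D : LineCalculus H) (t : ℝ) (x y : H) :
    ⟪D.wave t x, y⟫_ℂ = ⟪x, D.wave (-t) y⟫_ℂ := by
  rw [← star_wave, ContinuousLinearMap.star_eq_adjoint, ContinuousLinearMap.adjoint_inner_right]

lemma inner_wave_wave (D : LineCalculus H) (t : ℝ) (x y : H) :
    ⟪D.wave t x, D.wave t y⟫_ℂ = ⟪x, y⟫_ℂ := by
  rw [inner_wave_left, wave_neg_wave]

lemma norm_wave (D : LineCalculus H) (t : ℝ) (x : H) : ‖D.wave t x‖ = ‖x‖ := by
  have h := inner_wave_wave D t x x
  rw [inner_self_eq_norm_sq_to_K, inner_self_eq_norm_sq_to_K] at h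
  have h2 : ‖D.wave t x‖ ^ 2 = ‖x‖ ^ 2 := by exact_mod_cast h
  exact (pow_left_inj₀ (norm_nonneg _) (norm_nonneg _) two_ne_zero).1 h2

lemma norm_wave_le (D : LineCalculus H) (t : ℝ) : ‖D.wave t‖ ≤ 1 :=
  ContinuousLinearMap.opNorm_le_bound _ zero_le_one fun x => by rw [norm_wave, one_mul]

open LineCalculus in
lemma norm_exp_sub_le (a b : ℝ) :
    ‖Complex.exp (Complex.I * ((a : ℝ) : ℂ)) - Complex.exp (Complex.I * ((b : ℝ) : ℂ))‖ ≤ |a - b| := by
  have h1 : Complex.exp (Complex.I * ((a : ℝ) : ℂ)) - Complex.exp (Complex.I * ((b : ℝ) : ℂ))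
      = Complex.exp (Complex.I * ((b : ℝ) : ℂ)) *
        (Complex.exp (Complex.I * ((a - b : ℝ) : ℂ)) - 1) := by
    rw [mul_sub, ← Complex.exp_add, mul_one]
    push_cast
    ring_nf
  rw [h1, norm_mul, Complex.norm_exp]
  have := Real.norm_exp_I_mul_ofReal_sub_one_le (x := a - b)
  simpa using this

open LineCalculus in
/-- Norm continuity of the characters after a compactly supported cut-off. -/
lemma continuous_cutoff_character (χ : ℝ →ᵇ ℂ) (hχ : HasCompactSupport (χ : ℝ → ℂ)) :
    Continuous fun t : ℝ => χ * character t := by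
  obtain ⟨R, hR⟩ := hχ.isCompact.isBounded.subset_closedBall (0 : ℝ)
  set R' : ℝ := max R 0 with hR'
  have hR'0 : 0 ≤ R' := le_max_right _ _
  have key : ∀ s t : ℝ, dist (χ * character s) (χ * character t) ≤ (‖χ‖ * R') * dist s t := by
    intro s t
    rw [BoundedContinuousFunction.dist_le (by positivity)]
    intro u
    simp only [BoundedContinuousFunction.coe_mul, Pi.mul_apply, character_apply]
    rw [dist_eq_norm, ← mul_sub, norm_mul]
    by_cases hu : χ u = 0
    · rw [hu, norm_zero, zero_mul]; positivity
    · have hu' : u ∈ Metric.closedBall (0 : ℝ) R := hR (subset_tsupport _ hu)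
      have hu2 : |u| ≤ R' := by
        rw [mem_closedBall_zero_iff, Real.norm_eq_abs] at hu'
        exact hu'.trans (le_max_left _ _)
      have h1 := norm_exp_sub_le (s * u) (t * u)
      rw [← sub_mul, abs_mul] at h1
      have h2 : |s - t| * |u| ≤ R' * dist s t := by
        rw [Real.dist_eq, mul_comm]
        exact mul_le_mul_of_nonneg_right hu2 (abs_nonneg _)
      calc ‖χ u‖ * _ ≤ ‖χ‖ * (R' * dist s t) :=
            mul_le_mul (χ.norm_coe_le_norm u) (h1.trans h2) (norm_nonneg _) (norm_nonneg _)
        _ = _ := by ring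
  exact (LipschitzWith.of_dist_le_mul (K := ⟨‖χ‖ * R', by positivity⟩) key).continuous

/-- Strong continuity of the wave group. -/
lemma continuous_wave (D : LineCalculus H) (x : H) : Continuous fun t : ℝ => D.wave t x := by
  rw [Metric.continuous_iff]
  intro t ε hε
  obtain ⟨f, hf, hfx⟩ := D.window x (ε / 3) (by positivity)
  have hc : Continuous fun t : ℝ => D.apply (f * LineCalculus.character t) x := by
    have h1 := continuous_cutoff_character f hf
    have h2 : Continuous fun g : ℝ →ᵇ ℂ => D.apply g := by
      refine AddMonoidHomClass.continuous_of_bound D.apply 1 fun g => ?_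
      rw [one_mul]; exact apply_norm_le D g
    exact (h2.comp h1).clm_apply continuous_const
  rw [Metric.continuous_iff] at hc
  obtain ⟨δ, hδ, h⟩ := hc t (ε / 3) (by positivity)
  refine ⟨δ, hδ, fun s hs => ?_⟩
  have hs' := h s hs
  have e : ∀ r : ℝ, D.apply (f * LineCalculus.character r) x = D.wave r (D.apply f x) := by
    intro r; rw [mul_comm, apply_mul]; rfl
  rw [e, e] at hs'
  have e2 : ∀ r : ℝ, dist (D.wave r (D.apply f x)) (D.wave r x) < ε / 3 := by
    intro r
    rw [dist_eq_norm, ← map_sub, norm_wave]; exact hfx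
  calc dist (D.wave s x) (D.wave t x)
      ≤ dist (D.wave s x) (D.wave s (D.apply f x)) + dist (D.wave s (D.apply f x)) (D.wave t (D.apply f x))
        + dist (D.wave t (D.apply f x)) (D.wave t x) := dist_triangle4 _ _ _ _
    _ < ε / 3 + ε / 3 + ε / 3 := by
        have h1 := e2 s
        have h2 := e2 t
        rw [dist_comm] at h1
        gcongr
    _ = ε := by ring

/-- Integrating the waves gives the calculus of the Fourier transform. -/
lemma integral_wave (D : LineCalculus H) (g : ℝ → ℂ) (hg : Integrable g) (r : ℝ) (F : ℝ →ᵇ ℂ)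
    (hF : ∀ u, F u = ∫ t, g t * Complex.exp (Complex.I * ((r * t * u : ℝ) : ℂ))) (x : H) :
    ∫ t, g t • D.wave (r * t) x = D.apply F x := by
  have hint : Integrable fun t => g t • D.wave (r * t) x := by
    refine hg.smul_bdd ‖x‖ ?_ ?_
    · exact ((continuous_wave D x).comp (continuous_const.mul continuous_id)).aestronglyMeasurable
    · exact Filter.Eventually.of_forall fun t => (norm_wave D _ x).le
  refine ext_window' D fun χ hχ => ?_
  rw [← ContinuousLinearMap.integral_comp_comm _ hint]
  have hcont := (continuous_cutoff_character χ hχ).comp (continuous_const.mul continuous_id : Continuous fun t : ℝ => r * t)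
  have hint2 : Integrable fun t => g t • (χ * LineCalculus.character (r * t)) := by
    refine hg.smul_bdd ‖χ‖ ?_ ?_
    · exact hcont.aestronglyMeasurable
    · refine Filter.Eventually.of_forall fun t => ?_
      refine (norm_mul_le _ _).trans ?_
      have : ‖LineCalculus.character (r * t)‖ ≤ 1 := by
        rw [BoundedContinuousFunction.norm_le zero_le_one]
        intro u
        rw [character_apply, Complex.norm_exp]; simp
      nlinarith [norm_nonneg χ]
  -- the C_b valued integral
  have hI : ∫ t, g t • (χ * LineCalculus.character (r * t)) = χ * F := by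
    ext u
    have h1 := ContinuousLinearMap.integral_comp_comm (BoundedContinuousFunction.evalCLM ℂ u) hint2
    simp only [BoundedContinuousFunction.evalCLM_apply] at h1
    rw [← h1]
    simp only [BoundedContinuousFunction.coe_smul, BoundedContinuousFunction.coe_mul, Pi.mul_apply,
      smul_eq_mul, hF]
    rw [← integral_const_mul]
    congr 1
    ext t
    rw [character_apply]; ring
  have hL : ∃ L : (ℝ →ᵇ ℂ) →L[ℂ] H, ∀ f, L f = D.apply f x := by
    refine ⟨LinearMap.mkContinuous
      { toFun := fun f => D.apply f x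
        map_add' := fun f g => by rw [map_add]; rfl
        map_smul' := fun c f => by rw [map_smul]; rfl } ‖x‖ (fun f => ?_), fun f => rfl⟩
    rw [mul_comm]; exact apply_norm_le' D f x
  obtain ⟨L, hL⟩ := hL
  have h2 := ContinuousLinearMap.integral_comp_comm L hint2
  rw [hI, hL, apply_mul] at h2
  rw [← h2]
  congr 1
  ext t
  rw [hL, map_smul, map_smul]
  simp only [smul_apply]
  rw [apply_mul]; rfl

end Crest.Agent.S0112
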