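import Crest.Agent.S0112W.PartA

set_option autoImplicit false
open Filter MeasureTheory Crest.OpAlg
open scoped Topology InnerProductSpace BoundedContinuousFunction

namespace Crest.Agent.S0112

variable {H : Type*} [NormedAddCommGroup H] [InnerProductSpace ℂ H] [CompleteSpace H]

/-! ### Spectral support -/

lemma SupportedIn.add {D : LineCalculus H} {K : Set ℝ} {x y : H} (hx : D.SupportedIn K x)
    (hy : D.SupportedIn K y) : D.SupportedIn K (x + y) := by
  intro f hf; rw [map_add, hx f hf, hy f hf, add_zero]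

lemma SupportedIn.smul {D : LineCalculus H} {K : Set ℝ} {x : H} (hx : D.SupportedIn K x)
    (c : ℂ) : D.SupportedIn K (c • x) := by
  intro f hf; rw [map_smul, hx f hf, smul_zero]

lemma SupportedIn.zero {D : LineCalculus H} {K : Set ℝ} : D.SupportedIn K 0 := by
  intro f hf; rw [map_zero]

lemma SupportedIn.wave {D : LineCalculus H} {K : Set ℝ} {x : H} (hx : D.SupportedIn K x)
    (t : ℝ) : D.SupportedIn K (D.wave t x) := by
  intro f hf
  have : D.apply f (D.wave t x) = D.apply (LineCalculus.character t) (D.apply f x) := by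
    rw [← apply_mul, mul_comm, apply_mul]; rfl
  rw [this, hx f hf, map_zero]

lemma SupportedIn.mono {D : LineCalculus H} {K L : Set ℝ} {x : H} (hx : D.SupportedIn K x)
    (h : K ⊆ L) : D.SupportedIn L x := fun f hf => hx f fun u hu => hf u (h hu)

lemma supportedIn_apply (D : LineCalculus H) {K : Set ℝ} (F : ℝ →ᵇ ℂ) (hF : ∀ u ∉ K, F u = 0)
    (x : H) : D.SupportedIn K (D.apply F x) := by
  intro f hf
  rw [← apply_mul]
  have : f * F = 0 := by
    ext u
    by_cases hu : u ∈ K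
    · simp [hf u hu]
    · simp [hF u hu]
  rw [this, map_zero]; rfl

lemma SupportedIn.apply_eq {D : LineCalculus H} {K : Set ℝ} {x : H} (hx : D.SupportedIn K x)
    (F : ℝ →ᵇ ℂ) (hF : ∀ u ∈ K, F u = 1) : D.apply F x = x := by
  have h1 : D.apply (F - 1) x = 0 := hx _ fun u hu => by simp [hF u hu]
  rw [apply_sub, apply_one, sub_eq_zero] at h1
  exact h1

/-! ### Multiplying a compactly supported function by a continuous function -/

lemma exists_mul (f : ℝ →ᵇ ℂ) (hf : HasCompactSupport (f : ℝ → ℂ)) (c : ℝ → ℂ) (hc : Continuous c) :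
    ∃ g : ℝ →ᵇ ℂ, HasCompactSupport (g : ℝ → ℂ) ∧ ∀ u, g u = f u * c u := by
  have hg : HasCompactSupport fun u => f u * c u := hf.mul_right
  have hgc : Continuous fun u => f u * c u := f.continuous.mul hc
  obtain ⟨C, hC⟩ := hg.exists_bound_of_continuous hgc
  exact ⟨BoundedContinuousFunction.ofNormedAddCommGroup (fun u => f u * c u) hgc C hC, hg,
    fun u => rfl⟩

/-! ### Modular data -/

variable (S : ModularDatum H)

lemma J_inner (x y : H) : ⟪S.J x, S.J y⟫_ℂ = ⟪y, x⟫_ℂ := by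
  rw [← inner_conj_symm y x, inner_eq_sum_norm_sq_div_four (𝕜 := ℂ) (S.J x) (S.J y),
    inner_eq_sum_norm_sq_div_four (𝕜 := ℂ) x y]
  have h1 : S.J x + S.J y = S.J (x + y) := by rw [map_add]
  have h2 : S.J x - S.J y = S.J (x - y) := by rw [map_sub]
  have h3 : S.J x - (RCLike.I : ℂ) • S.J y = S.J (x + (RCLike.I : ℂ) • y) := by
    rw [map_add, LinearIsometryEquiv.map_smulₛₗ]
    simp [sub_eq_add_neg]
  have h4 : S.J x + (RCLike.I : ℂ) • S.J y = S.J (x - (RCLike.I : ℂ) • y) := by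
    rw [map_sub, LinearIsometryEquiv.map_smulₛₗ]
    simp [sub_eq_add_neg]
  rw [h1, h2, h3, h4, LinearIsometryEquiv.norm_map, LinearIsometryEquiv.norm_map,
    LinearIsometryEquiv.norm_map, LinearIsometryEquiv.norm_map]
  simp only [RCLike.I_to_complex, map_div₀, map_add, map_sub, map_mul, map_pow, Complex.conj_ofReal,
    Complex.conj_I, map_ofNat, Complex.coe_algebraMap]
  ring

lemma halfExp_of_mem {a : H →L[ℂ] H} (ha : a ∈ S.M) :
    S.D.HalfExp (a S.vac) (S.J (star a S.vac)) := by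
  have h : (a S.vac, star a S.vac) ∈
      closure (Set.range fun a : S.M => ((a : H →L[ℂ] H) S.vac, star (a : H →L[ℂ] H) S.vac)) :=
    subset_closure ⟨⟨a, ha⟩, rfl⟩
  rw [S.tomita] at h
  exact h

lemma one_mem_M : (1 : H →L[ℂ] H) ∈ S.M := one_mem S.M

lemma halfExp_vac : S.D.HalfExp S.vac (S.J S.vac) := by
  have := halfExp_of_mem S (one_mem_M S)
  simpa using this

lemma inner_of_halfExp {y y' : H} (h : S.D.HalfExp y y') : ⟪S.J S.vac, y'⟫_ℂ = ⟪S.vac, y⟫_ℂ := by
  have hmem : (y, S.J y') ∈ {p : H × H | S.D.HalfExp p.1 (S.J p.2)} := by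
    show S.D.HalfExp y (S.J (S.J y'))
    rwa [S.J_J]
  rw [← S.tomita] at hmem
  have hcl : IsClosed {p : H × H | ⟪S.J S.vac, S.J p.2⟫_ℂ = ⟪S.vac, p.1⟫_ℂ} := by
    refine isClosed_eq ?_ ?_
    · exact continuous_const.inner (S.J.continuous.comp continuous_snd)
    · exact continuous_const.inner continuous_fst
  have hsub : (Set.range fun a : S.M => ((a : H →L[ℂ] H) S.vac, star (a : H →L[ℂ] H) S.vac)) ⊆
      {p : H × H | ⟪S.J S.vac, S.J p.2⟫_ℂ = ⟪S.vac, p.1⟫_ℂ} := by
    rintro p ⟨a, rfl⟩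
    show ⟪S.J S.vac, S.J (star (a : H →L[ℂ] H) S.vac)⟫_ℂ = ⟪S.vac, (a : H →L[ℂ] H) S.vac⟫_ℂ
    rw [J_inner, ContinuousLinearMap.star_eq_adjoint, ContinuousLinearMap.adjoint_inner_left]
  have := closure_minimal hsub hcl hmem
  have h2 : ⟪S.J S.vac, S.J (S.J y')⟫_ℂ = ⟪S.vac, y⟫_ℂ := this
  rwa [S.J_J] at h2

lemma adjoint_apply (D : LineCalculus H) (f : ℝ →ᵇ ℂ) (x y : H) :
    ⟪D.apply f x, y⟫_ℂ = ⟪x, D.apply (star f) y⟫_ℂ := by
  rw [map_star, ContinuousLinearMap.star_eq_adjoint, ContinuousLinearMap.adjoint_inner_right]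

/-- `f(D) ξ = (f e^u)(D) ξ` for compactly supported `f`. -/
lemma apply_vac_exp (f g : ℝ →ᵇ ℂ) (hf : HasCompactSupport (f : ℝ → ℂ))
    (hg : ∀ u, g u = f u * ((Real.exp u : ℝ) : ℂ)) : S.D.apply f S.vac = S.D.apply g S.vac := by
  have hsc : HasCompactSupport ((star f : ℝ →ᵇ ℂ) : ℝ → ℂ) := by
    have : ((star f : ℝ →ᵇ ℂ) : ℝ → ℂ) = (fun z : ℂ => star z) ∘ (f : ℝ → ℂ) := by
      ext u; rfl
    rw [this]; exact hf.comp_left (by simp)
  obtain ⟨g1, hg1c, hg1⟩ := exists_mul (star f) hsc (fun u => ((Real.exp (u / 2) : ℝ) : ℂ))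
    (by fun_prop)
  -- `star f (D) z` and `g1 (D) z` are related by `exp (D/2)`
  have hrel : ∀ z, S.D.HalfExp (S.D.apply (star f) z) (S.D.apply g1 z) := by
    intro z f' g' hfg
    rw [← apply_mul, ← apply_mul]
    congr 2
    ext u
    simp only [BoundedContinuousFunction.coe_mul, Pi.mul_apply, hfg, hg1]
    ring
  have h1 : ∀ z, ⟪S.J S.vac, S.D.apply g1 z⟫_ℂ = ⟪S.vac, S.D.apply (star f) z⟫_ℂ :=
    fun z => inner_of_halfExp S (hrel z)
  have h2 : S.D.apply (star g1) (S.J S.vac) = S.D.apply f S.vac := by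
    refine ext_inner_right ℂ fun z => ?_
    rw [adjoint_apply, adjoint_apply, star_star]
    exact h1 z
  rw [← h2]
  refine halfExp_vac S (star g1) g fun u => ?_
  rw [hg, BoundedContinuousFunction.star_apply, hg1, BoundedContinuousFunction.star_apply]
  simp only [star_mul', Complex.star_def, Complex.conj_conj, Complex.conj_ofReal]
  rw [mul_assoc, ← Complex.ofReal_mul, ← Real.exp_add]
  ring_nf

lemma wave_vac (t : ℝ) : S.D.wave t S.vac = S.vac := by
  refine ext_window' S.D fun χ hχ => ?_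
  -- the quotient function
  set E : ℝ → ℂ := fun u => Complex.exp (Complex.I * ((t * u : ℝ) : ℂ)) with hE
  have hEd : Differentiable ℝ E := by
    intro u
    have h1 : HasDerivAt (fun u : ℝ => Complex.I * ((t * u : ℝ) : ℂ)) (Complex.I * ((t : ℝ) : ℂ)) u := by
      have := ((hasDerivAt_id u).const_mul t).ofReal_comp.const_mul Complex.I
      simpa using this
    exact h1.cexp.differentiableAt
  have hq1 : Continuous (dslope E 0) := by
    rw [← continuousOn_univ, continuousOn_dslope Filter.univ_mem]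
    exact ⟨hEd.continuous.continuousOn, hEd 0⟩
  have hq2 : Continuous (dslope Real.exp 0) := by
    rw [← continuousOn_univ, continuousOn_dslope Filter.univ_mem]
    exact ⟨Real.continuous_exp.continuousOn, Real.differentiableAt_exp⟩
  have hq2' : ∀ u, dslope Real.exp 0 u ≠ 0 := by
    intro u
    by_cases hu : u = 0
    · rw [hu, dslope_same]; simp
    · intro h0
      have := sub_smul_dslope Real.exp 0 u
      rw [h0, smul_zero, Real.exp_zero] at this
      have : Real.exp u = 1 := by linarith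
      rw [Real.exp_eq_one_iff] at this
      exact hu this
  have hqc : Continuous fun u : ℝ => - (dslope E 0 u) / ((dslope Real.exp 0 u : ℝ) : ℂ) := by
    refine hq1.neg.div (Complex.continuous_ofReal.comp hq2) fun u => ?_
    exact_mod_cast hq2' u
  obtain ⟨f, hfc, hf⟩ := exists_mul χ hχ _ hqc
  obtain ⟨g, hgc, hg⟩ := exists_mul f hfc (fun u => ((Real.exp u : ℝ) : ℂ)) (by fun_prop)
  have h1 := apply_vac_exp S f g hfc hg
  have h2 : χ * LineCalculus.character t - χ = f - g := by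
    ext u
    simp only [BoundedContinuousFunction.coe_sub, BoundedContinuousFunction.coe_mul, Pi.sub_apply,
      Pi.mul_apply, character_apply, hg, hf]
    have e1 := sub_smul_dslope E 0 u
    have e2 := sub_smul_dslope Real.exp 0 u
    simp only [sub_zero, Real.exp_zero, smul_eq_mul] at e1 e2
    have e3 : ((u : ℝ) : ℂ) * ((dslope Real.exp 0 u : ℝ) : ℂ) = ((Real.exp u : ℝ) : ℂ) - 1 := by
      rw [← Complex.ofReal_mul, e2]; push_cast; rfl
    have e4 : ((u : ℝ) : ℂ) * dslope E 0 u = Complex.exp (Complex.I * ((t * u : ℝ) : ℂ)) - 1 := by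
      have : E 0 = 1 := by simp [hE]
      rw [← this]
      rw [← e1]; simp
    have e5 : ((dslope Real.exp 0 u : ℝ) : ℂ) ≠ 0 := by exact_mod_cast hq2' u
    have e6 : ((Real.exp u : ℝ) : ℂ) = 1 + ((u : ℝ) : ℂ) * ((dslope Real.exp 0 u : ℝ) : ℂ) := by
      rw [e3]; ring
    have e7 : Complex.exp (Complex.I * ((t * u : ℝ) : ℂ)) = 1 + ((u : ℝ) : ℂ) * dslope E 0 u := by
      rw [e4]; ring
    rw [e6, e7]
    field_simp
    ring
  have h3 : S.D.apply (χ * LineCalculus.character t - χ) S.vac = 0 := by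
    rw [h2, apply_sub, h1, sub_self]
  rw [apply_sub, sub_eq_zero, apply_mul] at h3
  exact h3

/-- Tomita bound: `‖a⋆ ξ‖ ≤ e^{c/2} ‖a ξ‖` if `a ξ` has spectral support below `c`. -/
lemma norm_star_vac_le {a : H →L[ℂ] H} (ha : a ∈ S.M) {K : Set ℝ} {c : ℝ}
    (hK : ∀ u ∈ K, u ≤ c) (hs : S.D.SupportedIn K (a S.vac)) :
    ‖star a S.vac‖ ≤ Real.exp (c / 2) * ‖a S.vac‖ := by
  set y := S.J (star a S.vac) with hy
  have hny : ‖star a S.vac‖ = ‖y‖ := by rw [hy, LinearIsometryEquiv.norm_map]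
  have hrel : S.D.HalfExp (a S.vac) y := halfExp_of_mem S ha
  let f0 : ℝ →ᵇ ℂ := BoundedContinuousFunction.ofNormedAddCommGroup
    (fun u => ((Real.exp (min 0 ((c - u) / 2)) : ℝ) : ℂ)) (by fun_prop) 1 (fun u => by
      rw [Complex.norm_real, Real.norm_eq_abs, abs_of_pos (Real.exp_pos _), Real.exp_le_one_iff]
      exact min_le_left _ _)
  let g0 : ℝ →ᵇ ℂ := BoundedContinuousFunction.ofNormedAddCommGroup
    (fun u => ((Real.exp (min (u / 2) (c / 2)) : ℝ) : ℂ)) (by fun_prop) (Real.exp (c / 2)) (fun u => by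
      rw [Complex.norm_real, Real.norm_eq_abs, abs_of_pos (Real.exp_pos _)]
      exact Real.exp_le_exp.2 (min_le_right _ _))
  have hf0 : ∀ u, f0 u = ((Real.exp (min 0 ((c - u) / 2)) : ℝ) : ℂ) := fun u => rfl
  have hg0 : ∀ u, g0 u = ((Real.exp (min (u / 2) (c / 2)) : ℝ) : ℂ) := fun u => rfl
  have h1 : S.D.apply f0 y = S.D.apply g0 (a S.vac) := by
    refine hrel f0 g0 fun u => ?_
    have e : (c - u) / 2 + u / 2 = c / 2 := by ring
    rw [hf0, hg0, ← Complex.ofReal_mul, ← Real.exp_add, ← min_add_add_right, e, zero_add]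
  have h2 : S.D.apply f0 y = y := by
    refine ext_window' S.D fun f hf => ?_
    obtain ⟨p, hpc, hp⟩ := exists_mul f hf (fun u => f0 u - 1) (by fun_prop)
    obtain ⟨q, hqc, hq⟩ := exists_mul p hpc (fun u => ((Real.exp (u / 2) : ℝ) : ℂ)) (by fun_prop)
    have h3 := hrel p q hq
    have h4 : S.D.apply q (a S.vac) = 0 := by
      refine hs q fun u hu => ?_
      rw [hq, hp, hf0]
      have : min 0 ((c - u) / 2) = 0 := min_eq_left (by linarith [hK u hu])
      rw [this]; simp
    rw [h4] at h3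
    have h5 : p = f * f0 - f := by
      ext u
      simp only [BoundedContinuousFunction.coe_sub, BoundedContinuousFunction.coe_mul, Pi.sub_apply,
        Pi.mul_apply, hp]
      ring
    rw [h5, apply_sub, sub_eq_zero, apply_mul] at h3
    exact h3
  rw [hny, ← h2, h1]
  refine (apply_norm_le' S.D g0 _).trans (mul_le_mul_of_nonneg_right ?_ (norm_nonneg _))
  exact BoundedContinuousFunction.norm_ofNormedAddCommGroup_le _ (Real.exp_pos _).le _

end Crest.Agent.S0112
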