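import Crest.Agent.S0112W.PartB

set_option autoImplicit false
open Filter MeasureTheory Crest.OpAlg
open scoped Topology InnerProductSpace BoundedContinuousFunction

namespace Crest.Agent.S0112

variable {H : Type*} [NormedAddCommGroup H] [InnerProductSpace ℂ H] [CompleteSpace H]

/-! ### Window means -/

/-- complex window mean -/
noncomputable def wm (f : ℝ → ℂ) (k : ℕ) : ℂ := ⨍ t in Set.Icc (-(k : ℝ)) (k : ℝ), f t

lemma wm_eq (f : ℝ → ℂ) (k : ℕ) : wm f k = ((2 * (k : ℝ))⁻¹ : ℝ) • ∫ t in (-(k : ℝ))..(k : ℝ), f t := by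
  have hk : (-(k : ℝ)) ≤ k := by have : (0 : ℝ) ≤ k := Nat.cast_nonneg k; linarith
  rw [wm, setAverage_eq, intervalIntegral.integral_of_le hk, integral_Icc_eq_integral_Ioc]
  congr 1
  rw [Measure.real, Real.volume_Icc, ENNReal.toReal_ofReal (by linarith)]
  congr 1; ring

lemma windowMean_eq (f : ℝ → ℝ) (k : ℕ) :
    windowMean f k = ((2 * (k : ℝ))⁻¹ : ℝ) • ∫ t in (-(k : ℝ))..(k : ℝ), f t := by
  have hk : (-(k : ℝ)) ≤ k := by have : (0 : ℝ) ≤ k := Nat.cast_nonneg k; linarith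
  rw [windowMean, setAverage_eq, intervalIntegral.integral_of_le hk, integral_Icc_eq_integral_Ioc]
  congr 1
  rw [Measure.real, Real.volume_Icc, ENNReal.toReal_ofReal (by linarith)]
  congr 1; ring

lemma wm_ofReal (f : ℝ → ℝ) (k : ℕ) : wm (fun t => (f t : ℂ)) k = ((windowMean f k : ℝ) : ℂ) := by
  rw [wm_eq, windowMean_eq, intervalIntegral.integral_ofReal]
  simp

lemma wm_add {f g : ℝ → ℂ} (hf : Continuous f) (hg : Continuous g) (k : ℕ) :
    wm (fun t => f t + g t) k = wm f k + wm g k := by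
  rw [wm_eq, wm_eq, wm_eq, intervalIntegral.integral_add (hf.intervalIntegrable _ _)
    (hg.intervalIntegrable _ _), smul_add]

lemma wm_const_mul (c : ℂ) (f : ℝ → ℂ) (k : ℕ) : wm (fun t => c * f t) k = c * wm f k := by
  rw [wm_eq, wm_eq, intervalIntegral.integral_const_mul]
  simp only [Complex.real_smul]
  ring

lemma wm_norm_le {f : ℝ → ℂ} {C : ℝ} (hC : ∀ t, ‖f t‖ ≤ C) (k : ℕ) : ‖wm f k‖ ≤ C := by
  have hC0 : 0 ≤ C := (norm_nonneg _).trans (hC 0)
  have hk0 : (0 : ℝ) ≤ k := Nat.cast_nonneg k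
  rw [wm_eq, norm_smul, Real.norm_eq_abs, abs_of_nonneg (by positivity)]
  have h1 := intervalIntegral.norm_integral_le_of_norm_le_const (a := -(k : ℝ)) (b := (k : ℝ))
    (f := f) (C := C) (fun t _ => hC t)
  have h2 : |(k : ℝ) - -(k : ℝ)| = 2 * k := by rw [abs_of_nonneg (by linarith)]; ring
  rw [h2] at h1
  rcases eq_or_lt_of_le hk0 with hk | hk
  · rw [← hk]; simpa using hC0
  · calc (2 * (k : ℝ))⁻¹ * _ ≤ (2 * (k : ℝ))⁻¹ * (C * (2 * k)) :=
        mul_le_mul_of_nonneg_left h1 (by positivity)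
      _ = C := by field_simp

lemma exists_wm_tendsto (ω : Ultrafilter ℕ) {f : ℝ → ℂ} {C : ℝ} (hC : ∀ t, ‖f t‖ ≤ C) :
    ∃ L, Tendsto (wm f) ω (𝓝 L) ∧ ‖L‖ ≤ C := by
  have hcomp : IsCompact (Metric.closedBall (0 : ℂ) C) := isCompact_closedBall _ _
  have hle : (↑(ω.map (wm f)) : Filter ℂ) ≤ 𝓟 (Metric.closedBall (0 : ℂ) C) := by
    rw [le_principal_iff]
    have h : ∀ᶠ k in (ω : Filter ℕ), wm f k ∈ Metric.closedBall (0 : ℂ) C :=
      Filter.Eventually.of_forall fun k => by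
        rw [mem_closedBall_zero_iff]; exact wm_norm_le hC k
    exact h
  obtain ⟨L, hL, hL2⟩ := hcomp.ultrafilter_le_nhds (ω.map (wm f)) hle
  refine ⟨L, hL2, by simpa using hL⟩

lemma wm_translate {f : ℝ → ℂ} (hf : Continuous f) {C : ℝ} (hC : ∀ t, ‖f t‖ ≤ C) (s : ℝ) :
    Tendsto (fun k => wm (fun t => f (t + s)) k - wm f k) atTop (𝓝 0) := by
  have hC0 : 0 ≤ C := (norm_nonneg _).trans (hC 0)
  have hbound : ∀ k : ℕ, ‖wm (fun t => f (t + s)) k - wm f k‖ ≤ (C * |s|) * (k : ℝ)⁻¹ := by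
    intro k
    have hk0 : (0 : ℝ) ≤ k := Nat.cast_nonneg k
    rw [wm_eq, wm_eq, ← smul_sub, intervalIntegral.integral_comp_add_right,
      intervalIntegral.integral_interval_sub_interval_comm (hf.intervalIntegrable _ _)
      (hf.intervalIntegrable _ _) (hf.intervalIntegrable _ _), norm_smul, Real.norm_eq_abs,
      abs_of_nonneg (by positivity)]
    have h1 := intervalIntegral.norm_integral_le_of_norm_le_const (a := -(k : ℝ) + s) (b := -(k : ℝ))
      (f := f) (C := C) (fun t _ => hC t)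
    have h2 := intervalIntegral.norm_integral_le_of_norm_le_const (a := (k : ℝ) + s) (b := (k : ℝ))
      (f := f) (C := C) (fun t _ => hC t)
    have e1 : |-(k : ℝ) - (-(k : ℝ) + s)| = |s| := by rw [← abs_neg]; congr 1; ring
    have e2 : |(k : ℝ) - ((k : ℝ) + s)| = |s| := by rw [← abs_neg]; congr 1; ring
    rw [e1] at h1; rw [e2] at h2
    calc (2 * (k : ℝ))⁻¹ * _ ≤ (2 * (k : ℝ))⁻¹ * (C * |s| + C * |s|) := by
          refine mul_le_mul_of_nonneg_left ((norm_sub_le _ _).trans (add_le_add h1 h2)) (by positivity)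
      _ = _ := by rw [mul_inv]; ring
  refine squeeze_zero_norm hbound ?_
  have := (tendsto_inv_atTop_nhds_zero_nat (𝕜 := ℝ)).const_mul (C * |s|)
  simpa using this

lemma wm_reflect (f : ℝ → ℂ) (k : ℕ) : wm (fun t => f (-t)) k = wm f k := by
  rw [wm_eq, wm_eq, intervalIntegral.integral_comp_neg, neg_neg]

/-! ### The mean of the flow -/

lemma continuous_wave_neg (D : LineCalculus H) (x : H) : Continuous fun t : ℝ => D.wave (-t) x :=
  (continuous_wave D x).comp continuous_neg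

lemma inner_flow (D : LineCalculus H) (x : H →L[ℂ] H) (u w : H) (t : ℝ) :
    ⟪u, D.wave t (x (D.wave (-t) w))⟫_ℂ = ⟪D.wave (-t) u, x (D.wave (-t) w)⟫_ℂ := by
  rw [inner_wave_left, neg_neg]

lemma continuous_inner_flow (D : LineCalculus H) (x : H →L[ℂ] H) (u w : H) :
    Continuous fun t => ⟪u, D.wave t (x (D.wave (-t) w))⟫_ℂ := by
  simp only [inner_flow]
  exact (continuous_wave_neg D u).inner (x.continuous.comp (continuous_wave_neg D w))

lemma norm_inner_flow_le (D : LineCalculus H) (x : H →L[ℂ] H) (u w : H) (t : ℝ) :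
    ‖⟪u, D.wave t (x (D.wave (-t) w))⟫_ℂ‖ ≤ ‖x‖ * ‖u‖ * ‖w‖ := by
  rw [inner_flow]
  refine (norm_inner_le_norm _ _).trans ?_
  rw [norm_wave]
  have := x.le_opNorm (D.wave (-t) w)
  rw [norm_wave] at this
  calc ‖u‖ * ‖x (D.wave (-t) w)‖ ≤ ‖u‖ * (‖x‖ * ‖w‖) := mul_le_mul_of_nonneg_left this (norm_nonneg _)
    _ = _ := by ring

theorem exists_mean_op (D : LineCalculus H) (x : H →L[ℂ] H) (ω : Ultrafilter ℕ) :
    ∃ y : H →L[ℂ] H, ∀ u w, Tendsto (wm fun t => ⟪u, D.wave t (x (D.wave (-t) w))⟫_ℂ) ω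
      (𝓝 ⟪u, y w⟫_ℂ) := by
  have hex : ∀ u w : H, ∃ L, Tendsto (wm fun t => ⟪u, D.wave t (x (D.wave (-t) w))⟫_ℂ) ω (𝓝 L) ∧
      ‖L‖ ≤ ‖x‖ * ‖u‖ * ‖w‖ := fun u w => exists_wm_tendsto ω (norm_inner_flow_le D x u w)
  choose B hB hBn using hex
  have hadd1 : ∀ u u' w, B (u + u') w = B u w + B u' w := by
    intro u u' w
    refine tendsto_nhds_unique (hB (u + u') w) ?_
    refine ((hB u w).add (hB u' w)).congr fun k => ?_
    rw [← wm_add (continuous_inner_flow D x u w) (continuous_inner_flow D x u' w)]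
    congr 1; ext t; rw [inner_add_left]
  have hadd2 : ∀ u w w', B u (w + w') = B u w + B u w' := by
    intro u w w'
    refine tendsto_nhds_unique (hB u (w + w')) ?_
    refine ((hB u w).add (hB u w')).congr fun k => ?_
    rw [← wm_add (continuous_inner_flow D x u w) (continuous_inner_flow D x u w')]
    congr 1; ext t; simp only [map_add, inner_add_right]
  have hsm1 : ∀ (c : ℂ) u w, B (c • u) w = (starRingEnd ℂ c) * B u w := by
    intro c u w
    refine tendsto_nhds_unique (hB (c • u) w) ?_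
    refine ((hB u w).const_mul (starRingEnd ℂ c)).congr fun k => ?_
    rw [← wm_const_mul]
    congr 1; ext t; rw [inner_smul_left]
  have hsm2 : ∀ (c : ℂ) u w, B u (c • w) = c * B u w := by
    intro c u w
    refine tendsto_nhds_unique (hB u (c • w)) ?_
    refine ((hB u w).const_mul c).congr fun k => ?_
    rw [← wm_const_mul]
    congr 1; ext t; simp only [map_smul, inner_smul_right]
  let f : H →ₛₗ[starRingEnd ℂ] H →ₗ[ℂ] ℂ :=
    LinearMap.mk₂'ₛₗ (starRingEnd ℂ) (RingHom.id ℂ) B hadd1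
      (fun c u w => by rw [hsm1]; rfl) hadd2 (fun c u w => by rw [hsm2]; rfl)
  let BB : H →L⋆[ℂ] H →L[ℂ] ℂ := LinearMap.mkContinuous₂ f ‖x‖ (fun u w => hBn u w)
  refine ⟨ContinuousLinearMap.adjoint (InnerProductSpace.continuousLinearMapOfBilin BB), fun u w => ?_⟩
  rw [ContinuousLinearMap.adjoint_inner_right, InnerProductSpace.continuousLinearMapOfBilin_apply]
  exact hB u w

variable (S : ModularDatum H)

lemma mem_M_iff (y : H →L[ℂ] H) : y ∈ S.M ↔ ∀ g ∈ S.M.commutant, g * y = y * g := by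
  conv_lhs => rw [← VonNeumannAlgebra.commutant_commutant S.M]
  exact VonNeumannAlgebra.mem_commutant_iff

lemma commute_of_commutant {g x : H →L[ℂ] H} (hg : g ∈ S.M.commutant) (hx : x ∈ S.M) (w : H) :
    g (x w) = x (g w) := by
  have := (VonNeumannAlgebra.mem_commutant_iff.1 hg) x hx
  have := congrArg (fun a : H →L[ℂ] H => a w) this
  exact this.symm

/-- The mean of the flow of an element of `M` is the scalar given by the state. -/
theorem mean_flow (herg : S.Ergodic) (ω : Ultrafilter ℕ) (hω : (ω : Filter ℕ) ≤ atTop)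
    {x : H →L[ℂ] H} (hx : x ∈ S.M) (u w : H) :
    Tendsto (wm fun t => ⟪u, S.D.wave t (x (S.D.wave (-t) w))⟫_ℂ) ω
      (𝓝 (⟪S.vac, x S.vac⟫_ℂ * ⟪u, w⟫_ℂ)) := by
  obtain ⟨y, hy⟩ := exists_mean_op S.D x ω
  have hyM : y ∈ S.M := by
    rw [mem_M_iff]
    intro g hg
    ext w
    refine ext_inner_left ℂ fun u => ?_
    show ⟪u, g (y w)⟫_ℂ = ⟪u, y (g w)⟫_ℂ
    rw [← ContinuousLinearMap.adjoint_inner_left]
    refine tendsto_nhds_unique (hy _ _) ((hy u (g w)).congr fun k => ?_)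
    congr 1; ext t
    rw [ContinuousLinearMap.adjoint_inner_left]
    have h1 := commute_of_commutant S hg (S.flow_mem t x hx) w
    change g (S.D.wave t (x (S.D.wave (-t) w))) = S.D.wave t (x (S.D.wave (-t) (g w))) at h1
    rw [h1]
  have hyf : ∀ s, S.flow s y = y := by
    intro s
    ext w
    refine ext_inner_left ℂ fun u => ?_
    show ⟪u, S.D.wave s (y (S.D.wave (-s) w))⟫_ℂ = ⟪u, y w⟫_ℂ
    rw [inner_flow]
    have h1 := hy (S.D.wave (-s) u) (S.D.wave (-s) w)
    have h2 := hy u w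
    have h3 := (wm_translate (continuous_inner_flow S.D x u w) (norm_inner_flow_le S.D x u w) s).mono_left hω
    have h4 := h3.add h2
    rw [zero_add] at h4
    refine tendsto_nhds_unique h1 (h4.congr fun k => ?_)
    rw [sub_add_cancel]
    congr 1; ext t
    rw [inner_flow, inner_flow]
    have e : -(t + s) = -t + -s := by ring
    rw [e, wave_add]
    rfl
  obtain ⟨c, hc⟩ := herg y hyM hyf
  have hc2 : c = ⟪S.vac, x S.vac⟫_ℂ := by
    have h1 := hy S.vac S.vac
    have h2 : ⟪S.vac, y S.vac⟫_ℂ = c := by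
      rw [hc, smul_apply, inner_smul_right]
      show c * ⟪S.vac, S.vac⟫_ℂ = c
      rw [inner_self_eq_norm_sq_to_K, S.norm_vac]; simp
    rw [h2] at h1
    have h3 : ∀ t, ⟪S.vac, S.D.wave t (x (S.D.wave (-t) S.vac))⟫_ℂ = ⟪S.vac, x S.vac⟫_ℂ := by
      intro t; rw [inner_flow, wave_vac]
    simp only [h3] at h1
    -- constant mean
    refine tendsto_nhds_unique h1 ?_
    refine (tendsto_const_nhds (x := ⟪S.vac, x S.vac⟫_ℂ)).congr' ?_
    have : ∀ᶠ k : ℕ in (ω : Filter ℕ), 0 < k := hω (eventually_gt_atTop 0)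
    filter_upwards [this] with k hk
    rw [wm_eq, intervalIntegral.integral_const]
    have hk' : (0 : ℝ) < k := by exact_mod_cast hk
    rw [smul_smul]
    have : (2 * (k : ℝ))⁻¹ * ((k : ℝ) - -(k : ℝ)) = 1 := by field_simp; ring
    rw [this, one_smul]
  have h := hy u w
  rw [hc, smul_apply, inner_smul_right, hc2] at h
  exact h

/-- The same for the reversed flow. -/
theorem mean_flow' (herg : S.Ergodic) (ω : Ultrafilter ℕ) (hω : (ω : Filter ℕ) ≤ atTop)
    {x : H →L[ℂ] H} (hx : x ∈ S.M) (u w : H) :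
    Tendsto (wm fun t => ⟪u, S.D.wave (-t) (x (S.D.wave t w))⟫_ℂ) ω
      (𝓝 (⟪S.vac, x S.vac⟫_ℂ * ⟪u, w⟫_ℂ)) := by
  refine (mean_flow S herg ω hω hx u w).congr fun k => ?_
  rw [← wm_reflect]
  simp only [neg_neg]

end Crest.Agent.S0112
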