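import Crest.Agent.S0112W.PartC

set_option autoImplicit false
open Filter MeasureTheory Crest.OpAlg
open scoped Topology InnerProductSpace BoundedContinuousFunction FourierTransform

namespace Crest.Agent.S0112

variable {H : Type*} [NormedAddCommGroup H] [InnerProductSpace ℂ H] [CompleteSpace H]

/-! ### Smoothing -/

lemma continuous_wave_comp (D : LineCalculus H) {z : ℝ → H} (hz : Continuous z) (r : ℝ) :
    Continuous fun t => D.wave (r * t) (z t) := by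
  rw [continuous_iff_continuousAt]
  intro s
  have h1 : Tendsto (fun t => D.wave (r * t) (z s)) (𝓝 s) (𝓝 (D.wave (r * s) (z s))) :=
    (((continuous_wave D (z s)).comp (continuous_const.mul continuous_id)).tendsto s)
  have h2 : Tendsto (fun t => D.wave (r * t) (z t - z s)) (𝓝 s) (𝓝 0) := by
    rw [tendsto_zero_iff_norm_tendsto_zero]
    simp only [norm_wave]
    have := (hz.tendsto s).sub_const (z s)
    rw [sub_self] at this
    simpa using this.norm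
  have h3 := h2.add h1
  rw [zero_add] at h3
  refine h3.congr fun t => ?_
  rw [← map_add, sub_add_cancel]

variable (S : ModularDatum H)

theorem exists_smoothing {b : H →L[ℂ] H} (hb : b ∈ S.M) (g : ℝ → ℂ) (hg : Integrable g) (r : ℝ)
    (F : ℝ →ᵇ ℂ) (hF : ∀ u, F u = ∫ t, g t * Complex.exp (Complex.I * ((r * t * u : ℝ) : ℂ))) :
    ∃ a ∈ S.M, ‖a‖ ≤ (∫ t, ‖g t‖) * ‖b‖ ∧ a S.vac = S.D.apply F (b S.vac) := by
  have hcont : ∀ x : H, Continuous fun t => S.D.wave (r * t) (b (S.D.wave (-(r * t)) x)) := by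
    intro x
    refine continuous_wave_comp S.D ?_ r
    exact b.continuous.comp ((continuous_wave_neg S.D x).comp (continuous_const.mul continuous_id))
  have hbd : ∀ x : H, ∀ t, ‖S.D.wave (r * t) (b (S.D.wave (-(r * t)) x))‖ ≤ ‖b‖ * ‖x‖ := by
    intro x t
    rw [norm_wave]
    have := b.le_opNorm (S.D.wave (-(r * t)) x)
    rwa [norm_wave] at this
  have hint : ∀ x : H, Integrable fun t => g t • S.D.wave (r * t) (b (S.D.wave (-(r * t)) x)) :=
    fun x => hg.smul_bdd (‖b‖ * ‖x‖) (hcont x).aestronglyMeasurable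
      (Filter.Eventually.of_forall (hbd x))
  let a0 : H →ₗ[ℂ] H :=
    { toFun := fun x => ∫ t, g t • S.D.wave (r * t) (b (S.D.wave (-(r * t)) x))
      map_add' := fun x y => by
        rw [← integral_add (hint x) (hint y)]
        congr 1; ext t; simp only [map_add, smul_add]
      map_smul' := fun c x => by
        rw [RingHom.id_apply, ← integral_smul]
        congr 1; ext t; simp only [map_smul]; rw [smul_comm] }
  have ha0 : ∀ x, ‖a0 x‖ ≤ ((∫ t, ‖g t‖) * ‖b‖) * ‖x‖ := by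
    intro x
    refine (norm_integral_le_integral_norm _).trans ?_
    rw [mul_assoc, ← integral_mul_const]
    refine integral_mono (hint x).norm (hg.norm.mul_const _) fun t => ?_
    show ‖g t • _‖ ≤ _
    rw [norm_smul]
    exact mul_le_mul_of_nonneg_left (hbd x t) (norm_nonneg _)
  refine ⟨a0.mkContinuous _ ha0, ?_, ?_, ?_⟩
  · rw [mem_M_iff]
    intro c hc
    ext x
    show c (∫ t, g t • S.D.wave (r * t) (b (S.D.wave (-(r * t)) x))) =
      ∫ t, g t • S.D.wave (r * t) (b (S.D.wave (-(r * t)) (c x)))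
    rw [← ContinuousLinearMap.integral_comp_comm _ (hint x)]
    congr 1; ext t
    rw [map_smul]
    congr 1
    exact commute_of_commutant S hc (S.flow_mem (r * t) b hb) x
  · exact LinearMap.mkContinuous_norm_le _ (by positivity) _
  · show ∫ t, g t • S.D.wave (r * t) (b (S.D.wave (-(r * t)) S.vac)) = _
    simp only [wave_vac]
    exact integral_wave S.D g hg r F hF (b S.vac)

/-- A fixed bump function as a Fourier transform of an integrable function. -/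
theorem exists_bump : ∃ (f0 : ℝ → ℂ) (ρ : ℝ → ℂ), Integrable f0 ∧ Continuous ρ ∧
    (∀ u, ρ u = ∫ t, f0 t * Complex.exp (Complex.I * ((-2 * Real.pi * t * u : ℝ) : ℂ))) ∧
    (∀ u, |u| ≤ 2 → ρ u = 1) ∧ (∀ u, 4 ≤ |u| → ρ u = 0) ∧ ∀ u, ‖ρ u‖ ≤ 1 := by
  let B : ContDiffBump (0 : ℝ) := ⟨2, 4, by norm_num, by norm_num⟩
  have hc : ContDiff ℝ (⊤ : ℕ∞) (fun u => ((B u : ℝ) : ℂ)) :=
    Complex.ofRealCLM.contDiff.comp B.contDiff
  have hcs : HasCompactSupport (fun u => ((B u : ℝ) : ℂ)) := by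
    have : (fun u => ((B u : ℝ) : ℂ)) = (fun x : ℝ => (x : ℂ)) ∘ B := rfl
    rw [this]
    exact B.hasCompactSupport.comp_left (by simp)
  let ρS : SchwartzMap ℝ ℂ := hcs.toSchwartzMap hc
  have hρS : ∀ u, ρS u = ((B u : ℝ) : ℂ) := fun u => rfl
  refine ⟨⇑(𝓕⁻ ρS : SchwartzMap ℝ ℂ), fun u => ((B u : ℝ) : ℂ), ?_, ?_, ?_, ?_, ?_, ?_⟩
  · exact (𝓕⁻ ρS : SchwartzMap ℝ ℂ).integrable
  · exact hc.continuous
  · intro u
    have h1 : 𝓕 (𝓕⁻ ρS) = ρS := FourierInvPair.fourier_fourierInv_eq _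
    have h2 : (𝓕 (𝓕⁻ ρS)) u = ((B u : ℝ) : ℂ) := by rw [h1]; rfl
    rw [SchwartzMap.fourier_coe, Real.fourier_real_eq_integral_exp_smul] at h2
    show ((B u : ℝ) : ℂ) = _
    rw [← h2]
    congr 1; ext t
    rw [smul_eq_mul, mul_comm, mul_comm Complex.I]
  · intro u hu
    have : B u = 1 := B.one_of_mem_closedBall (by
      rw [mem_closedBall_zero_iff, Real.norm_eq_abs]; exact hu)
    show ((B u : ℝ) : ℂ) = 1
    rw [this]; simp
  · intro u hu
    have : B u = 0 := B.zero_of_le_dist (by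
      rw [dist_zero_right, Real.norm_eq_abs]; exact hu)
    show ((B u : ℝ) : ℂ) = 0
    rw [this]; simp
  · intro u
    show ‖((B u : ℝ) : ℂ)‖ ≤ 1
    rw [Complex.norm_real, Real.norm_eq_abs, abs_of_nonneg B.nonneg]
    exact B.le_one

/-- The smoothing operators at scale `δ` around `s`, with a uniform constant. -/
theorem exists_smoother : ∃ L : ℝ, 0 ≤ L ∧ ∀ (s δ : ℝ), 0 < δ → ∃ F : ℝ →ᵇ ℂ,
    (∀ u, |u - s| ≤ 2 * δ → F u = 1) ∧ (∀ u, 4 * δ ≤ |u - s| → F u = 0) ∧ ‖F‖ ≤ 1 ∧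
    ∀ b ∈ S.M, ∃ a ∈ S.M, ‖a‖ ≤ L * ‖b‖ ∧ a S.vac = S.D.apply F (b S.vac) := by
  obtain ⟨f0, ρ, hf0, hρc, hρ, hρ1, hρ0, hρn⟩ := exists_bump
  refine ⟨∫ t, ‖f0 t‖, integral_nonneg fun t => norm_nonneg _, fun s δ hδ => ?_⟩
  let F : ℝ →ᵇ ℂ := BoundedContinuousFunction.ofNormedAddCommGroup (fun u => ρ ((u - s) / δ))
    (by fun_prop) 1 (fun u => hρn _)
  have hF : ∀ u, F u = ρ ((u - s) / δ) := fun u => rfl
  have habs : ∀ u, |(u - s) / δ| = |u - s| / δ := fun u => by rw [abs_div, abs_of_pos hδ]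
  refine ⟨F, fun u hu => ?_, fun u hu => ?_, ?_, fun b hb => ?_⟩
  · rw [hF]; apply hρ1; rw [habs, div_le_iff₀ hδ]; exact hu
  · rw [hF]; apply hρ0; rw [habs, le_div_iff₀ hδ]; exact hu
  · exact BoundedContinuousFunction.norm_ofNormedAddCommGroup_le _ zero_le_one _
  · let g : ℝ → ℂ := fun t => f0 t * Complex.exp (Complex.I * ((2 * Real.pi * t * s / δ : ℝ) : ℂ))
    have hgn : ∀ t, ‖g t‖ = ‖f0 t‖ := by
      intro t
      show ‖f0 t * _‖ = _
      rw [norm_mul, Complex.norm_exp]; simp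
    have hgi : Integrable g := by
      refine Integrable.mul_bdd (c := 1) hf0 ?_ ?_
      · exact (by fun_prop : Continuous fun t : ℝ => Complex.exp (Complex.I * ((2 * Real.pi * t * s / δ : ℝ) : ℂ))).aestronglyMeasurable
      · refine Filter.Eventually.of_forall fun t => ?_
        rw [Complex.norm_exp]; simp
    obtain ⟨a, ha, han, hav⟩ := exists_smoothing S hb g hgi (-2 * Real.pi / δ) F (fun u => by
      rw [hF, hρ]
      congr 1; ext t
      show _ = f0 t * _ * _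
      rw [mul_assoc (f0 t), ← Complex.exp_add]
      congr 2
      push_cast
      field_simp
      ring)
    refine ⟨a, ha, ?_, hav⟩
    simpa only [hgn] using han

/-! ### Truncation -/

theorem exists_truncation {v : H →L[ℂ] H} (hv : v ∈ S.M) {R : ℝ} (hR : 0 < R) :
    ∃ v' ∈ S.M, ‖v'‖ ≤ √R ∧ ‖v S.vac - v' S.vac‖ ≤ √R * (‖star v (v S.vac)‖ / R) := by
  set p : H →L[ℂ] H := star v * v with hp
  have hpM : p ∈ S.M := mul_mem (star_mem hv) hv
  have hunit : IsUnit ((1 : H →L[ℂ] H) + ((R⁻¹ : ℝ) : ℂ) • p) := by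
    have h0 : (0 : H →L[ℂ] H) ≤ ((R⁻¹ : ℝ) : ℂ) • p := by
      have e : ((R⁻¹ : ℝ) : ℂ) • p = star ((((√R)⁻¹ : ℝ) : ℂ) • v) * ((((√R)⁻¹ : ℝ) : ℂ) • v) := by
        rw [star_smul, smul_mul_smul_comm, Complex.star_def, Complex.conj_ofReal, ← Complex.ofReal_mul,
          ← mul_inv, Real.mul_self_sqrt hR.le]
      rw [e]; exact star_mul_self_nonneg _
    have h1 : (1 : H →L[ℂ] H) ≤ 1 + ((R⁻¹ : ℝ) : ℂ) • p := le_add_of_nonneg_right h0
    exact CStarAlgebra.isUnit_of_le 1 h1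
  obtain ⟨U, hU⟩ := hunit
  set y : H →L[ℂ] H := ((U⁻¹ : (H →L[ℂ] H)ˣ) : H →L[ℂ] H) with hy
  have hy1 : y * (1 + ((R⁻¹ : ℝ) : ℂ) • p) = 1 := by rw [← hU, hy]; exact U.inv_mul
  have hy2 : (1 + ((R⁻¹ : ℝ) : ℂ) • p) * y = 1 := by rw [← hU, hy]; exact U.mul_inv
  have hyM : y ∈ S.M := by
    rw [mem_M_iff]
    intro g hg
    have hgp : g * p = p * g := by
      have := (VonNeumannAlgebra.mem_commutant_iff.1 hg) p hpM
      exact this.symm
    have hc : g * (1 + ((R⁻¹ : ℝ) : ℂ) • p) = (1 + ((R⁻¹ : ℝ) : ℂ) • p) * g := by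
      rw [mul_add, add_mul, mul_one, one_mul, mul_smul_comm, smul_mul_assoc, hgp]
    calc g * y = y * (1 + ((R⁻¹ : ℝ) : ℂ) • p) * (g * y) := by rw [hy1, one_mul]
      _ = y * ((1 + ((R⁻¹ : ℝ) : ℂ) • p) * g) * y := by simp only [mul_assoc]
      _ = y * (g * (1 + ((R⁻¹ : ℝ) : ℂ) • p)) * y := by rw [hc]
      _ = y * g * ((1 + ((R⁻¹ : ℝ) : ℂ) • p) * y) := by simp only [mul_assoc]
      _ = y * g := by rw [hy2, mul_one]
  have hnorm : ∀ x : H, ‖v (y x)‖ ≤ √R * ‖x‖ := by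
    intro x
    have hx : y x + ((R⁻¹ : ℝ) : ℂ) • p (y x) = x := by
      have := congrArg (fun a : H →L[ℂ] H => a x) hy2
      simpa using this
    -- `‖x‖² ≥ 2 R⁻¹ ‖v y x‖²`
    have h1 : ‖x‖ ^ 2 = ‖y x‖ ^ 2 + 2 * (R⁻¹ * ‖v (y x)‖ ^ 2) + ‖((R⁻¹ : ℝ) : ℂ) • p (y x)‖ ^ 2 := by
      conv_lhs => rw [← hx]
      rw [@norm_add_sq ℂ]
      congr 3
      rw [inner_smul_right]
      have : ⟪y x, p (y x)⟫_ℂ = ((‖v (y x)‖ ^ 2 : ℝ) : ℂ) := by
        rw [hp]
        show ⟪y x, star v (v (y x))⟫_ℂ = _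
        rw [ContinuousLinearMap.star_eq_adjoint, ContinuousLinearMap.adjoint_inner_right,
          inner_self_eq_norm_sq_to_K]
        push_cast; rfl
      rw [this, ← Complex.ofReal_mul]
      exact Complex.ofReal_re _
    have h2 : ‖v (y x)‖ ^ 2 ≤ R * ‖x‖ ^ 2 := by
      have h3 : R⁻¹ * ‖v (y x)‖ ^ 2 ≤ ‖x‖ ^ 2 := by
        have : 0 ≤ R⁻¹ * ‖v (y x)‖ ^ 2 := by positivity
        nlinarith [sq_nonneg ‖y x‖, sq_nonneg ‖((R⁻¹ : ℝ) : ℂ) • p (y x)‖]
      calc ‖v (y x)‖ ^ 2 = R * (R⁻¹ * ‖v (y x)‖ ^ 2) := by field_simp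
        _ ≤ R * ‖x‖ ^ 2 := mul_le_mul_of_nonneg_left h3 hR.le
    calc ‖v (y x)‖ = √(‖v (y x)‖ ^ 2) := (Real.sqrt_sq (norm_nonneg _)).symm
      _ ≤ √(R * ‖x‖ ^ 2) := Real.sqrt_le_sqrt h2
      _ = √R * ‖x‖ := by rw [Real.sqrt_mul hR.le, Real.sqrt_sq (norm_nonneg _)]
  refine ⟨v * y, mul_mem hv hyM, ?_, ?_⟩
  · exact ContinuousLinearMap.opNorm_le_bound _ (Real.sqrt_nonneg _) hnorm
  · have h1 : S.vac - y S.vac = y (((R⁻¹ : ℝ) : ℂ) • p S.vac) := by
      have := congrArg (fun a : H →L[ℂ] H => a S.vac) hy1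
      have h2 : y (S.vac + ((R⁻¹ : ℝ) : ℂ) • p S.vac) = S.vac := by simpa using this
      rw [map_add] at h2
      rw [sub_eq_iff_eq_add, add_comm]; exact h2.symm
    show ‖v S.vac - v (y S.vac)‖ ≤ _
    rw [← map_sub, h1]
    refine (hnorm _).trans ?_
    rw [norm_smul, Complex.norm_real, Real.norm_eq_abs, abs_of_pos (by positivity : 0 < R⁻¹)]
    have : p S.vac = star v (v S.vac) := rfl
    rw [this, div_eq_inv_mul]

end Crest.Agent.S0112
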