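import Crest.Agent.S0112W.PartD

set_option autoImplicit false
open Filter MeasureTheory Crest.OpAlg
open scoped Topology InnerProductSpace BoundedContinuousFunction

namespace Crest.Agent.S0112

variable {H : Type*} [NormedAddCommGroup H] [InnerProductSpace ℂ H] [CompleteSpace H]

/-! ### Real window means -/

lemma windowMean_re {f : ℝ → ℂ} (hf : Continuous f) (k : ℕ) :
    windowMean (fun t => (f t).re) k = (wm f k).re := by
  rw [windowMean_eq, wm_eq]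
  have := ContinuousLinearMap.intervalIntegral_comp_comm Complex.reCLM
    (hf.intervalIntegrable (μ := volume) (-(k : ℝ)) k)
  simp only [Complex.reCLM_apply] at this
  rw [this, Complex.smul_re]

lemma tendsto_windowMean_re {ω : Ultrafilter ℕ} {f : ℝ → ℂ} (hf : Continuous f) {L : ℂ}
    (h : Tendsto (wm f) ω (𝓝 L)) : Tendsto (windowMean fun t => (f t).re) ω (𝓝 L.re) := by
  have h1 := (Complex.continuous_re.tendsto L).comp h
  refine h1.congr fun k => ?_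
  rw [windowMean_re hf]; rfl

lemma windowMean_add {f g : ℝ → ℝ} (hf : Continuous f) (hg : Continuous g) (k : ℕ) :
    windowMean (fun t => f t + g t) k = windowMean f k + windowMean g k := by
  rw [windowMean_eq, windowMean_eq, windowMean_eq, intervalIntegral.integral_add
    (hf.intervalIntegrable _ _) (hg.intervalIntegrable _ _), smul_add]

lemma windowMean_const_mul (c : ℝ) (f : ℝ → ℝ) (k : ℕ) :
    windowMean (fun t => c * f t) k = c * windowMean f k := by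
  rw [windowMean_eq, windowMean_eq, intervalIntegral.integral_const_mul]
  simp only [smul_eq_mul]
  ring

lemma windowMean_mono {f g : ℝ → ℝ} (hf : Continuous f) (hg : Continuous g) (h : ∀ t, f t ≤ g t)
    (k : ℕ) : windowMean f k ≤ windowMean g k := by
  rw [windowMean_eq, windowMean_eq]
  have hk : (-(k : ℝ)) ≤ k := by have : (0 : ℝ) ≤ k := Nat.cast_nonneg k; linarith
  refine mul_le_mul_of_nonneg_left ?_ (by positivity)
  exact intervalIntegral.integral_mono_on hk (hf.intervalIntegrable _ _)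
    (hg.intervalIntegrable _ _) fun t _ => h t

lemma windowMean_const {k : ℕ} (hk : 0 < k) (c : ℝ) : windowMean (fun _ => c) k = c := by
  rw [windowMean_eq, intervalIntegral.integral_const]
  have hk' : (0 : ℝ) < k := by exact_mod_cast hk
  simp only [smul_eq_mul]
  field_simp
  ring

lemma exists_windowMean_le {f : ℝ → ℝ} (hf : Continuous f) {k : ℕ} (hk : 0 < k) :
    ∃ t, windowMean f k ≤ f t := by
  have hk' : (0 : ℝ) < k := by exact_mod_cast hk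
  obtain ⟨t, -, ht⟩ := exists_setAverage_le (μ := volume) (s := Set.Icc (-(k : ℝ)) (k : ℝ)) (f := f)
    (by rw [Real.volume_Icc]; simp; linarith) (by rw [Real.volume_Icc]; exact ENNReal.ofReal_ne_top)
    (hf.continuousOn.integrableOn_compact isCompact_Icc)
  exact ⟨t, ht⟩

lemma tendsto_ultraMean (ω : Ultrafilter ℕ) {f : ℝ → ℝ} {C : ℝ} (hC : ∀ t, |f t| ≤ C) :
    Tendsto (windowMean f) ω (𝓝 (ultraMean ω f)) := by
  obtain ⟨L, hL, -⟩ := exists_wm_tendsto ω (f := fun t => (f t : ℂ)) (C := C) (fun t => by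
    rw [Complex.norm_real]; exact hC t)
  have h1 := (Complex.continuous_re.tendsto L).comp hL
  have h2 : Tendsto (windowMean f) ω (𝓝 L.re) := by
    refine h1.congr fun k => ?_
    rw [Function.comp_apply, wm_ofReal, Complex.ofReal_re]
  exact tendsto_nhds_limUnder ⟨_, h2⟩

variable (S : ModularDatum H)

/-! ### The greedy step -/

/-- The potential. -/
noncomputable def pot (T : H →L[ℂ] H) (lam κ : ℝ) (v : H →L[ℂ] H) : ℝ :=
  ‖T (v S.vac)‖ ^ 2 - lam * ‖star v (v S.vac)‖ ^ 2 - κ * ‖v S.vac‖ ^ 2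

lemma par_law (x y : H) : ‖x + y‖ ^ 2 + ‖x - y‖ ^ 2 = 2 * ‖x‖ ^ 2 + 2 * ‖y‖ ^ 2 := by
  have := parallelogram_law_with_norm ℂ x y
  nlinarith [this]

lemma norm_add_sq_le (x y : H) : ‖x + y‖ ^ 2 ≤ 2 * ‖x‖ ^ 2 + 2 * ‖y‖ ^ 2 := by
  have := par_law x y
  nlinarith [sq_nonneg ‖x - y‖]

/-- Averaging over the sign. -/
lemma pot_average (T : H →L[ℂ] H) {lam κ : ℝ} (hlam : 0 ≤ lam) (w A : H →L[ℂ] H) (ρ : ℝ) :
    2 * (pot S T lam κ w + ρ ^ 2 * (‖T (A S.vac)‖ ^ 2 -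
      lam * (2 * (⟪star w (w S.vac), star A (A S.vac)⟫_ℂ).re + 2 * ‖star A (w S.vac)‖ ^ 2
        + 2 * ‖star w (A S.vac)‖ ^ 2) - lam * ρ ^ 2 * ‖star A (A S.vac)‖ ^ 2 - κ * ‖A S.vac‖ ^ 2)) ≤
    pot S T lam κ (w + (ρ : ℂ) • A) + pot S T lam κ (w - (ρ : ℂ) • A) := by
  set ξ := S.vac with hξ
  have hρn : ∀ x : H, ‖(ρ : ℂ) • x‖ ^ 2 = ρ ^ 2 * ‖x‖ ^ 2 := by
    intro x; rw [norm_smul, mul_pow, Complex.norm_real, Real.norm_eq_abs, sq_abs]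
  -- first term
  have e1 : ‖T ((w + (ρ : ℂ) • A) ξ)‖ ^ 2 + ‖T ((w - (ρ : ℂ) • A) ξ)‖ ^ 2
      = 2 * ‖T (w ξ)‖ ^ 2 + 2 * (ρ ^ 2 * ‖T (A ξ)‖ ^ 2) := by
    have h1 : T ((w + (ρ : ℂ) • A) ξ) = T (w ξ) + (ρ : ℂ) • T (A ξ) := by
      simp [map_add, map_smul]
    have h2 : T ((w - (ρ : ℂ) • A) ξ) = T (w ξ) - (ρ : ℂ) • T (A ξ) := by
      simp [map_sub, map_smul]
    rw [h1, h2, par_law, hρn]
  -- third term
  have e3 : ‖(w + (ρ : ℂ) • A) ξ‖ ^ 2 + ‖(w - (ρ : ℂ) • A) ξ‖ ^ 2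
      = 2 * ‖w ξ‖ ^ 2 + 2 * (ρ ^ 2 * ‖A ξ‖ ^ 2) := by
    have h1 : (w + (ρ : ℂ) • A) ξ = w ξ + (ρ : ℂ) • A ξ := by simp
    have h2 : (w - (ρ : ℂ) • A) ξ = w ξ - (ρ : ℂ) • A ξ := by simp
    rw [h1, h2, par_law, hρn]
  -- second term
  set X : H := star w (w ξ) + (ρ ^ 2 : ℂ) • star A (A ξ) with hX
  set Y : H := star A (w ξ) + star w (A ξ) with hY
  have e2 : ‖star (w + (ρ : ℂ) • A) ((w + (ρ : ℂ) • A) ξ)‖ ^ 2 +
      ‖star (w - (ρ : ℂ) • A) ((w - (ρ : ℂ) • A) ξ)‖ ^ 2 = 2 * ‖X‖ ^ 2 + 2 * (ρ ^ 2 * ‖Y‖ ^ 2) := by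
    have h1 : star (w + (ρ : ℂ) • A) ((w + (ρ : ℂ) • A) ξ) = X + (ρ : ℂ) • Y := by
      rw [star_add, star_smul, Complex.star_def, Complex.conj_ofReal, hX, hY]
      simp only [add_apply, smul_apply, map_add, map_smul, smul_add, smul_smul]
      rw [← pow_two]
      abel
    have h2 : star (w - (ρ : ℂ) • A) ((w - (ρ : ℂ) • A) ξ) = X - (ρ : ℂ) • Y := by
      rw [star_sub, star_smul, Complex.star_def, Complex.conj_ofReal, hX, hY]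
      simp only [sub_apply, smul_apply, map_sub, map_smul, smul_add, smul_sub, smul_smul]
      rw [← pow_two]
      abel
    rw [h1, h2, par_law, hρn]
  have hXn : ‖X‖ ^ 2 = ‖star w (w ξ)‖ ^ 2 + 2 * (ρ ^ 2 * (⟪star w (w ξ), star A (A ξ)⟫_ℂ).re)
      + ρ ^ 4 * ‖star A (A ξ)‖ ^ 2 := by
    rw [hX, @norm_add_sq ℂ]
    congr 1
    · congr 2
      rw [inner_smul_right, ← Complex.ofReal_pow]
      exact Complex.re_ofReal_mul _ _
    · rw [norm_smul, mul_pow, ← Complex.ofReal_pow, Complex.norm_real, Real.norm_eq_abs, sq_abs]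
      ring
  have hYn : ‖Y‖ ^ 2 ≤ 2 * ‖star A (w ξ)‖ ^ 2 + 2 * ‖star w (A ξ)‖ ^ 2 := norm_add_sq_le _ _
  have hfin : pot S T lam κ (w + (ρ : ℂ) • A) + pot S T lam κ (w - (ρ : ℂ) • A) =
      (‖T ((w + (ρ : ℂ) • A) ξ)‖ ^ 2 + ‖T ((w - (ρ : ℂ) • A) ξ)‖ ^ 2)
      - lam * (‖star (w + (ρ : ℂ) • A) ((w + (ρ : ℂ) • A) ξ)‖ ^ 2 +
        ‖star (w - (ρ : ℂ) • A) ((w - (ρ : ℂ) • A) ξ)‖ ^ 2)
      - κ * (‖(w + (ρ : ℂ) • A) ξ‖ ^ 2 + ‖(w - (ρ : ℂ) • A) ξ‖ ^ 2) := by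
    simp only [pot]; ring
  rw [hfin, e1, e2, e3, hXn]
  simp only [pot]
  have h5 : lam * (ρ ^ 2 * ‖Y‖ ^ 2) ≤
      lam * (ρ ^ 2 * (2 * ‖star A (w ξ)‖ ^ 2 + 2 * ‖star w (A ξ)‖ ^ 2)) := by
    gcongr
  nlinarith [h5]

lemma smul_mem_M (c : ℂ) {a : H →L[ℂ] H} (ha : a ∈ S.M) : c • a ∈ S.M := by
  rw [mem_M_iff] at ha ⊢
  intro g hg
  rw [mul_smul_comm, smul_mul_assoc, ha g hg]

lemma star_flow (t : ℝ) (a : H →L[ℂ] H) : star (S.flow t a) = S.flow t (star a) := by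
  simp only [ModularDatum.flow, star_mul, star_wave, neg_neg, mul_assoc]

lemma flow_vac (t : ℝ) (a : H →L[ℂ] H) : S.flow t a S.vac = S.D.wave t (a S.vac) := by
  show S.D.wave t (a (S.D.wave (-t) S.vac)) = _
  rw [wave_vac]

lemma flow_apply (t : ℝ) (a : H →L[ℂ] H) (x : H) :
    S.flow t a x = S.D.wave t (a (S.D.wave (-t) x)) := rfl

lemma flow_mul_apply (t : ℝ) (a b : H →L[ℂ] H) (x : H) :
    S.flow t a (S.flow t b x) = S.D.wave t (a (b (S.D.wave (-t) x))) := by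
  rw [flow_apply, flow_apply, wave_neg_wave]

lemma norm_flow_le (t : ℝ) (a : H →L[ℂ] H) : ‖S.flow t a‖ ≤ ‖a‖ := by
  refine ContinuousLinearMap.opNorm_le_bound _ (norm_nonneg _) fun x => ?_
  rw [flow_apply, norm_wave]
  have := a.le_opNorm (S.D.wave (-t) x)
  rwa [norm_wave] at this

lemma norm_sq_eq_re (x : H) : ‖x‖ ^ 2 = (⟪x, x⟫_ℂ).re := by
  rw [inner_self_eq_norm_sq_to_K]
  have : ((‖x‖ : ℂ)) ^ 2 = ((‖x‖ ^ 2 : ℝ) : ℂ) := by push_cast; rfl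
  show ‖x‖ ^ 2 = (((‖x‖ : ℂ)) ^ 2).re
  rw [this, Complex.ofReal_re]

lemma star_inner_left (a : H →L[ℂ] H) (x y : H) : ⟪star a x, y⟫_ℂ = ⟪x, a y⟫_ℂ := by
  rw [ContinuousLinearMap.star_eq_adjoint, ContinuousLinearMap.adjoint_inner_left]

lemma star_inner_right (a : H →L[ℂ] H) (x y : H) : ⟪x, star a y⟫_ℂ = ⟪a x, y⟫_ℂ := by
  rw [ContinuousLinearMap.star_eq_adjoint, ContinuousLinearMap.adjoint_inner_right]

theorem greedy_step (herg : S.Ergodic) (ω : Ultrafilter ℕ) (hω : (ω : Filter ℕ) ≤ atTop)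
    (T : H →L[ℂ] H) {K : Set ℝ} {c : ℝ} (hK : ∀ u ∈ K, u ≤ c) {a w : H →L[ℂ] H}
    (ha : a ∈ S.M) (haK : S.D.SupportedIn K (a S.vac)) (hw : w ∈ S.M)
    (hwK : S.D.SupportedIn K (w S.vac)) {L : ℝ}
    (hL : Tendsto (windowMean fun t => ‖T (S.D.wave t (a S.vac))‖ ^ 2) ω (𝓝 L))
    {lam κ ρ β : ℝ} (hlam : 0 ≤ lam) (hκ : 0 ≤ κ)
    (hβ : β < L - κ * ‖a S.vac‖ ^ 2 - lam * ρ ^ 2 * ‖a‖ ^ 4) :
    ∃ v ∈ S.M, S.D.SupportedIn K (v S.vac) ∧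
      pot S T lam (κ + ρ ^ 2 * (lam * (2 + 4 * Real.exp c) * ‖a S.vac‖ ^ 2)) w + ρ ^ 2 * β
        ≤ pot S T lam κ v := by
  set ξ := S.vac with hξ
  have haE : ‖star a ξ‖ ^ 2 ≤ Real.exp c * ‖a ξ‖ ^ 2 := by
    have h1 := norm_star_vac_le S ha hK haK
    have h2 : Real.exp c = Real.exp (c / 2) ^ 2 := by
      rw [pow_two, ← Real.exp_add]; ring_nf
    rw [h2, ← mul_pow]
    exact pow_le_pow_left₀ (norm_nonneg _) h1 2
  have hwE : ‖star w ξ‖ ^ 2 ≤ Real.exp c * ‖w ξ‖ ^ 2 := by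
    have h1 := norm_star_vac_le S hw hK hwK
    have h2 : Real.exp c = Real.exp (c / 2) ^ 2 := by
      rw [pow_two, ← Real.exp_add]; ring_nf
    rw [h2, ← mul_pow]
    exact pow_le_pow_left₀ (norm_nonneg _) h1 2
  -- the pieces
  let g2 : ℝ → ℂ := fun t => ⟪star w (w ξ), S.D.wave t ((star a * a) (S.D.wave (-t) ξ))⟫_ℂ
  let g3 : ℝ → ℂ := fun t => ⟪w ξ, S.D.wave t ((a * star a) (S.D.wave (-t) (w ξ)))⟫_ℂ
  let g4 : ℝ → ℂ := fun t => ⟪a ξ, S.D.wave (-t) ((w * star w) (S.D.wave t (a ξ)))⟫_ℂ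
  have hg2c : Continuous g2 := continuous_inner_flow S.D _ _ _
  have hg3c : Continuous g3 := continuous_inner_flow S.D _ _ _
  have hg4c : Continuous g4 := by
    have := (continuous_inner_flow S.D (w * star w) (a ξ) (a ξ)).comp continuous_neg
    refine this.congr fun t => ?_
    simp only [Function.comp_apply, neg_neg]; rfl
  have hg2 : Tendsto (windowMean fun t => (g2 t).re) ω (𝓝 (‖a ξ‖ ^ 2 * ‖w ξ‖ ^ 2)) := by
    have h1 := tendsto_windowMean_re hg2c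
      (mean_flow S herg ω hω (mul_mem (star_mem ha) ha) (star w (w ξ)) ξ)
    have h2 : (⟪S.vac, (star a * a) S.vac⟫_ℂ * ⟪star w (w ξ), ξ⟫_ℂ).re = ‖a ξ‖ ^ 2 * ‖w ξ‖ ^ 2 := by
      have e1 : ⟪S.vac, (star a * a) S.vac⟫_ℂ = ((‖a ξ‖ ^ 2 : ℝ) : ℂ) := by
        show ⟪S.vac, star a (a S.vac)⟫_ℂ = _
        rw [star_inner_right, inner_self_eq_norm_sq_to_K]; push_cast; rfl
      have e2 : ⟪star w (w ξ), ξ⟫_ℂ = ((‖w ξ‖ ^ 2 : ℝ) : ℂ) := by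
        rw [star_inner_left, inner_self_eq_norm_sq_to_K]; push_cast; rfl
      rw [e1, e2, ← Complex.ofReal_mul, Complex.ofReal_re]
    rw [h2] at h1; exact h1
  have hg3 : Tendsto (windowMean fun t => (g3 t).re) ω (𝓝 (‖star a ξ‖ ^ 2 * ‖w ξ‖ ^ 2)) := by
    have h1 := tendsto_windowMean_re hg3c
      (mean_flow S herg ω hω (mul_mem ha (star_mem ha)) (w ξ) (w ξ))
    have h2 : (⟪S.vac, (a * star a) S.vac⟫_ℂ * ⟪w ξ, w ξ⟫_ℂ).re = ‖star a ξ‖ ^ 2 * ‖w ξ‖ ^ 2 := by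
      have e1 : ⟪S.vac, (a * star a) S.vac⟫_ℂ = ((‖star a ξ‖ ^ 2 : ℝ) : ℂ) := by
        show ⟪S.vac, a (star a S.vac)⟫_ℂ = _
        rw [← star_inner_left, inner_self_eq_norm_sq_to_K]; push_cast; rfl
      have e2 : ⟪w ξ, w ξ⟫_ℂ = ((‖w ξ‖ ^ 2 : ℝ) : ℂ) := by
        rw [inner_self_eq_norm_sq_to_K]; push_cast; rfl
      rw [e1, e2, ← Complex.ofReal_mul, Complex.ofReal_re]
    rw [h2] at h1; exact h1
  have hg4 : Tendsto (windowMean fun t => (g4 t).re) ω (𝓝 (‖star w ξ‖ ^ 2 * ‖a ξ‖ ^ 2)) := by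
    have h1 := tendsto_windowMean_re hg4c
      (mean_flow' S herg ω hω (mul_mem hw (star_mem hw)) (a ξ) (a ξ))
    have h2 : (⟪S.vac, (w * star w) S.vac⟫_ℂ * ⟪a ξ, a ξ⟫_ℂ).re = ‖star w ξ‖ ^ 2 * ‖a ξ‖ ^ 2 := by
      have e1 : ⟪S.vac, (w * star w) S.vac⟫_ℂ = ((‖star w ξ‖ ^ 2 : ℝ) : ℂ) := by
        show ⟪S.vac, w (star w S.vac)⟫_ℂ = _
        rw [← star_inner_left, inner_self_eq_norm_sq_to_K]; push_cast; rfl
      have e2 : ⟪a ξ, a ξ⟫_ℂ = ((‖a ξ‖ ^ 2 : ℝ) : ℂ) := by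
        rw [inner_self_eq_norm_sq_to_K]; push_cast; rfl
      rw [e1, e2, ← Complex.ofReal_mul, Complex.ofReal_re]
    rw [h2] at h1; exact h1
  have hg1c : Continuous fun t => ‖T (S.D.wave t (a ξ))‖ ^ 2 :=
    ((T.continuous.comp (continuous_wave S.D (a ξ))).norm).pow 2
  -- identification of the pieces
  have i2 : ∀ t, (⟪star w (w ξ), star (S.flow t a) (S.flow t a ξ)⟫_ℂ).re = (g2 t).re := by
    intro t; rw [star_flow, flow_mul_apply]; rfl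
  have i3 : ∀ t, ‖star (S.flow t a) (w ξ)‖ ^ 2 = (g3 t).re := by
    intro t
    rw [norm_sq_eq_re, star_inner_left, star_flow, flow_mul_apply]; rfl
  have i4 : ∀ t, ‖star w (S.flow t a ξ)‖ ^ 2 = (g4 t).re := by
    intro t
    rw [norm_sq_eq_re, star_inner_left, flow_vac, inner_wave_left]; rfl
  have i1 : ∀ t, T (S.flow t a ξ) = T (S.D.wave t (a ξ)) := fun t => by rw [flow_vac]
  let G : ℝ → ℝ := fun t => ‖T (S.D.wave t (a ξ))‖ ^ 2 +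
    ((-(2 * lam)) * (g2 t).re + ((-(2 * lam)) * (g3 t).re + (-(2 * lam)) * (g4 t).re))
  have hg2c' : Continuous fun t => (-(2 * lam)) * (g2 t).re :=
    continuous_const.mul (Complex.continuous_re.comp hg2c)
  have hg3c' : Continuous fun t => (-(2 * lam)) * (g3 t).re :=
    continuous_const.mul (Complex.continuous_re.comp hg3c)
  have hg4c' : Continuous fun t => (-(2 * lam)) * (g4 t).re :=
    continuous_const.mul (Complex.continuous_re.comp hg4c)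
  have hGc : Continuous G := hg1c.add (hg2c'.add (hg3c'.add hg4c'))
  have hG : Tendsto (windowMean G) ω (𝓝 (L + ((-(2 * lam)) * (‖a ξ‖ ^ 2 * ‖w ξ‖ ^ 2) +
      ((-(2 * lam)) * (‖star a ξ‖ ^ 2 * ‖w ξ‖ ^ 2) +
        (-(2 * lam)) * (‖star w ξ‖ ^ 2 * ‖a ξ‖ ^ 2))))) := by
    refine (hL.add ((hg2.const_mul _).add ((hg3.const_mul _).add (hg4.const_mul _)))).congr fun k => ?_
    have a1 := windowMean_add hg3c' hg4c' k
    have a2 := windowMean_add (g := fun t => (-(2 * lam)) * (g3 t).re + (-(2 * lam)) * (g4 t).re)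
      hg2c' (hg3c'.add hg4c') k
    have a3 := windowMean_add (g := fun t => (-(2 * lam)) * (g2 t).re +
      ((-(2 * lam)) * (g3 t).re + (-(2 * lam)) * (g4 t).re)) hg1c (hg2c'.add (hg3c'.add hg4c')) k
    rw [← windowMean_const_mul, ← windowMean_const_mul, ← windowMean_const_mul, ← a1, ← a2, ← a3]
  set β' : ℝ := β + κ * ‖a ξ‖ ^ 2 + lam * ρ ^ 2 * ‖a‖ ^ 4
    - lam * (2 + 4 * Real.exp c) * ‖a ξ‖ ^ 2 * ‖w ξ‖ ^ 2 with hβ'
  have hlt : β' < L + ((-(2 * lam)) * (‖a ξ‖ ^ 2 * ‖w ξ‖ ^ 2) +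
      ((-(2 * lam)) * (‖star a ξ‖ ^ 2 * ‖w ξ‖ ^ 2) +
        (-(2 * lam)) * (‖star w ξ‖ ^ 2 * ‖a ξ‖ ^ 2))) := by
    have h1 : lam * (‖star a ξ‖ ^ 2 * ‖w ξ‖ ^ 2) ≤ lam * (Real.exp c * ‖a ξ‖ ^ 2 * ‖w ξ‖ ^ 2) := by
      gcongr
    have h2 : lam * (‖star w ξ‖ ^ 2 * ‖a ξ‖ ^ 2) ≤ lam * (Real.exp c * ‖w ξ‖ ^ 2 * ‖a ξ‖ ^ 2) := by
      gcongr
    rw [hβ']
    nlinarith [h1, h2, hβ]
  have hev := hG.eventually (lt_mem_nhds hlt)
  have hev2 : ∀ᶠ k : ℕ in (ω : Filter ℕ), 0 < k := hω (eventually_gt_atTop 0)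
  obtain ⟨k, hk1, hk2⟩ := (hev.and hev2).exists
  obtain ⟨t, ht⟩ := exists_windowMean_le hGc hk2
  have hGt : β' < G t := lt_of_lt_of_le hk1 ht
  set A := S.flow t a with hA
  have hAM : A ∈ S.M := S.flow_mem t a ha
  have hAK : S.D.SupportedIn K (A ξ) := by
    rw [hA, flow_vac]; exact SupportedIn.wave haK t
  have hAn : ‖A ξ‖ = ‖a ξ‖ := by rw [hA, flow_vac, norm_wave]
  have hAA : ‖star A (A ξ)‖ ^ 2 ≤ ‖a‖ ^ 4 := by
    have h1 : ‖star A (A ξ)‖ ≤ ‖a‖ ^ 2 := by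
      calc ‖star A (A ξ)‖ ≤ ‖star A‖ * ‖A ξ‖ := (star A).le_opNorm _
        _ ≤ ‖a‖ * ‖a‖ := by
            rw [norm_star]
            refine mul_le_mul (norm_flow_le S t a) ?_ (norm_nonneg _) (norm_nonneg _)
            rw [hAn]
            have := a.le_opNorm ξ
            rwa [hξ, S.norm_vac, mul_one] at this
        _ = ‖a‖ ^ 2 := by ring
    calc ‖star A (A ξ)‖ ^ 2 ≤ (‖a‖ ^ 2) ^ 2 := pow_le_pow_left₀ (norm_nonneg _) h1 2
      _ = ‖a‖ ^ 4 := by ring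
  have hav := pot_average S T (κ := κ) hlam w A ρ
  rw [← hξ, hA, i2, i3, i4, i1, ← hA, hAn] at hav
  have hGt' : β' < ‖T (S.D.wave t (a ξ))‖ ^ 2 +
    ((-(2 * lam)) * (g2 t).re + ((-(2 * lam)) * (g3 t).re + (-(2 * lam)) * (g4 t).re)) := hGt
  -- total gain
  have hpotw : pot S T lam (κ + ρ ^ 2 * (lam * (2 + 4 * Real.exp c) * ‖a ξ‖ ^ 2)) w
      = pot S T lam κ w - ρ ^ 2 * (lam * (2 + 4 * Real.exp c) * ‖a ξ‖ ^ 2) * ‖w ξ‖ ^ 2 := by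
    simp only [pot]; ring
  have hgain : pot S T lam (κ + ρ ^ 2 * (lam * (2 + 4 * Real.exp c) * ‖a ξ‖ ^ 2)) w + ρ ^ 2 * β ≤
      pot S T lam κ w + ρ ^ 2 * (‖T (S.D.wave t (a ξ))‖ ^ 2 -
      lam * (2 * (g2 t).re + 2 * (g3 t).re + 2 * (g4 t).re) - lam * ρ ^ 2 * ‖star A (A ξ)‖ ^ 2
      - κ * ‖a ξ‖ ^ 2) := by
    rw [hpotw]
    have h1 : lam * ρ ^ 2 * ‖star A (A ξ)‖ ^ 2 ≤ lam * ρ ^ 2 * ‖a‖ ^ 4 := by gcongr
    have h2 : β - lam * (2 + 4 * Real.exp c) * ‖a ξ‖ ^ 2 * ‖w ξ‖ ^ 2 ≤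
      ‖T (S.D.wave t (a ξ))‖ ^ 2 -
      lam * (2 * (g2 t).re + 2 * (g3 t).re + 2 * (g4 t).re) - lam * ρ ^ 2 * ‖star A (A ξ)‖ ^ 2
      - κ * ‖a ξ‖ ^ 2 := by
      rw [hβ'] at hGt'
      linarith
    have h3 := mul_le_mul_of_nonneg_left h2 (sq_nonneg ρ)
    linarith
  -- choose a sign
  by_cases hs : pot S T lam (κ + ρ ^ 2 * (lam * (2 + 4 * Real.exp c) * ‖a ξ‖ ^ 2)) w + ρ ^ 2 * β
      ≤ pot S T lam κ (w + (ρ : ℂ) • A)
  · refine ⟨w + (ρ : ℂ) • A, add_mem hw (smul_mem_M S _ hAM), ?_, hs⟩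
    show S.D.SupportedIn K (w ξ + (ρ : ℂ) • A ξ)
    exact SupportedIn.add hwK (SupportedIn.smul hAK _)
  · refine ⟨w - (ρ : ℂ) • A, sub_mem hw (smul_mem_M S _ hAM), ?_, ?_⟩
    · show S.D.SupportedIn K (w ξ - (ρ : ℂ) • A ξ)
      rw [sub_eq_add_neg, ← neg_smul]
      exact SupportedIn.add hwK (SupportedIn.smul hAK _)
    · push Not at hs
      linarith

end Crest.Agent.S0112
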